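import Mathlib

/-!
Dimension bound: a Noetherian local ring over a field of characteristic zero with `r` derivations
`D_i` and `r` elements `x_j` of the maximal ideal with `det (D_i x_j)` a unit has Krull
dimension at least `r`.
-/

namespace Vale.Agent.H23

open IsLocalRing

universe u

/-- cancellation step: if `D x = 1` and `x ^ k * a = 0`, then `x ∣ a`. -/
lemma dvd_of_pow_mul_eq_zero {k Q : Type*} [Field k] [CharZero k] [CommRing Q] [Algebra k Q]
    (D : Derivation k Q Q) (x : Q) (hx : D x = 1) :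
    ∀ (m : ℕ) (a : Q), x ^ m * a = 0 → x ∣ a := by
  intro m
  induction m with
  | zero => intro a ha; simp at ha; simp [ha]
  | succ m ih =>
    intro a ha
    have h1 : D (x ^ (m + 1) * a) = 0 := by rw [ha]; simp
    have h2 : x ^ m * (((m : Q) + 1) * a + x * D a) = 0 := by
      rw [Derivation.leibniz, Derivation.leibniz_pow, hx] at h1
      simp only [smul_eq_mul, nsmul_eq_mul, Nat.add_sub_cancel, mul_one] at h1
      have h3 : x ^ (m + 1) * D a + a * (((m + 1 : ℕ) : Q) * x ^ m) = 0 := h1
      push_cast at h3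
      linear_combination h3
    have h3 := ih _ h2
    have h4 : x ∣ ((m : Q) + 1) * a := by
      have := dvd_sub h3 (Dvd.intro (D a) rfl : x ∣ x * D a)
      simpa using this
    have hunit : ((m : Q) + 1) = algebraMap k Q ((m : k) + 1) := by simp
    have hne : ((m : k) + 1) ≠ 0 := by exact_mod_cast Nat.succ_ne_zero m
    obtain ⟨c, hc⟩ := h4
    refine ⟨algebraMap k Q ((m : k) + 1)⁻¹ * c, ?_⟩
    have : algebraMap k Q ((m : k) + 1)⁻¹ * (((m : Q) + 1) * a) = a := by
      rw [hunit, ← mul_assoc, ← map_mul, inv_mul_cancel₀ hne, map_one, one_mul]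
    rw [← this, hc]; ring

lemma pow_dvd_of_pow_mul_eq_zero {k Q : Type*} [Field k] [CharZero k] [CommRing Q] [Algebra k Q]
    (D : Derivation k Q Q) (x : Q) (hx : D x = 1) :
    ∀ (j m : ℕ) (a : Q), x ^ m * a = 0 → x ^ j ∣ a := by
  intro j
  induction j with
  | zero => intro m a _; simp
  | succ j ih =>
    intro m a ha
    obtain ⟨b, rfl⟩ := dvd_of_pow_mul_eq_zero D x hx m a ha
    have : x ^ (m + 1) * b = 0 := by rw [← ha]; ring
    obtain ⟨c, rfl⟩ := ih (m + 1) b this
    exact ⟨c, by ring⟩

lemma mem_nonZeroDivisors_of_derivation {k Q : Type*} [Field k] [CharZero k] [CommRing Q]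
    [IsLocalRing Q] [IsNoetherianRing Q] [Algebra k Q]
    (D : Derivation k Q Q) (x : Q) (hx : D x = 1) (hm : x ∈ maximalIdeal Q) :
    x ∈ nonZeroDivisors Q := by
  rw [mem_nonZeroDivisors_iff_left]
  intro a ha
  have hpow : ∀ j : ℕ, a ∈ (maximalIdeal Q) ^ j := by
    intro j
    have h1 : x ^ 1 * a = 0 := by rw [pow_one]; exact ha
    obtain ⟨c, hc⟩ := pow_dvd_of_pow_mul_eq_zero D x hx j 1 a h1
    rw [hc]
    exact Ideal.mul_mem_right _ _ (Ideal.pow_mem_pow hm j)
  have := Ideal.iInf_pow_eq_bot_of_isLocalRing (maximalIdeal Q) (Ideal.IsPrime.ne_top inferInstance)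
  have h2 : a ∈ (⨅ i : ℕ, (maximalIdeal Q) ^ i) := by
    rw [Ideal.mem_iInf]; exact hpow
  rw [this] at h2
  simpa using h2

theorem dim_ge_of_dual_derivations {k : Type*} [Field k] [CharZero k] :
    ∀ (r : ℕ) (Q : Type u) [CommRing Q] [IsLocalRing Q] [IsNoetherianRing Q] [Algebra k Q]
      (x : Fin r → Q) (D : Fin r → Derivation k Q Q),
      (∀ i, x i ∈ maximalIdeal Q) → (∀ i j, D i (x j) = if i = j then 1 else 0) →
      (r : WithBot ℕ∞) ≤ ringKrullDim Q := by
  intro r
  induction r with
  | zero =>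
    intro Q _ _ _ _ x D _ _
    have : (0 : WithBot ℕ∞) ≤ ringKrullDim Q := ringKrullDim_nonneg_of_nontrivial
    simpa using this
  | succ r ih =>
    intro Q _ _ _ _ x D hx hD
    have hx0 : x 0 ∈ nonZeroDivisors Q :=
      mem_nonZeroDivisors_of_derivation (D 0) (x 0) (by simpa using hD 0 0) (hx 0)
    let I : Ideal Q := Ideal.span {x 0}
    have hI : I ≤ maximalIdeal Q := by
      rw [Ideal.span_le, Set.singleton_subset_iff]; exact hx 0
    have hIne : I ≠ ⊤ := fun h => (Ideal.IsPrime.ne_top (inferInstance : (maximalIdeal Q).IsPrime))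
      (top_le_iff.mp (h ▸ hI))
    have : Nontrivial (Q ⧸ I) := Ideal.Quotient.nontrivial_iff.mpr hIne
    have : IsLocalRing (Q ⧸ I) :=
      IsLocalRing.of_surjective' (Ideal.Quotient.mk I) Ideal.Quotient.mk_surjective
    have hker : ∀ i : Fin r, ∀ y, (Ideal.Quotient.mkₐ k I) y = 0 →
        (Ideal.Quotient.mkₐ k I) (D i.succ y) = 0 := by
      intro i y hy
      rw [Ideal.Quotient.mkₐ_eq_mk, Ideal.Quotient.eq_zero_iff_mem] at hy ⊢
      obtain ⟨c, rfl⟩ := Ideal.mem_span_singleton'.mp hy
      rw [Derivation.leibniz]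
      have h0 : D i.succ (x 0) = 0 := by
        rw [hD]; simp
      rw [h0, smul_zero, zero_add, smul_eq_mul]
      exact Ideal.mul_mem_right (D i.succ c) I (Ideal.mem_span_singleton_self (x 0))
    have hsurj : Function.Surjective (Ideal.Quotient.mkₐ k I) := Ideal.Quotient.mkₐ_surjective k I
    let D' : Fin r → Derivation k (Q ⧸ I) (Q ⧸ I) := fun i =>
      Derivation.liftOfSurjective hsurj (hker i)
    let x' : Fin r → Q ⧸ I := fun i => Ideal.Quotient.mkₐ k I (x i.succ)
    have key := ih (Q ⧸ I) x' D' (by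
      intro i
      have h1 : ¬ IsUnit (x i.succ) := (mem_maximalIdeal _).mp (hx i.succ)
      rw [mem_maximalIdeal, mem_nonunits_iff]
      intro hu
      have : IsLocalHom (Ideal.Quotient.mk I) :=
        IsLocalHom.of_surjective _ Ideal.Quotient.mk_surjective
      exact h1 (isUnit_of_map_unit (Ideal.Quotient.mk I) _ hu)) (by
      intro i j
      change (Derivation.liftOfSurjective hsurj (hker i)) (Ideal.Quotient.mkₐ k I (x j.succ)) = _
      rw [Derivation.liftOfSurjective_apply, hD]
      by_cases hij : i = j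
      · subst hij; simp
      · have : ¬ (i.succ = j.succ) := fun h => hij (Fin.succ_injective _ h)
        simp [hij])
    have h2 := ringKrullDim_quotient_succ_le_of_nonZeroDivisor hx0
    calc ((r + 1 : ℕ) : WithBot ℕ∞) = (r : WithBot ℕ∞) + 1 := by push_cast; rfl
      _ ≤ ringKrullDim (Q ⧸ I) + 1 := by gcongr
      _ ≤ ringKrullDim Q := h2

/-- The bound with an invertible Jacobian matrix. -/
theorem dim_ge_of_derivations {k : Type*} [Field k] [CharZero k] {ι : Type*} [Fintype ι]
    [DecidableEq ι] (Q : Type u) [CommRing Q] [IsLocalRing Q] [IsNoetherianRing Q] [Algebra k Q]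
    (x : ι → Q) (D : ι → Derivation k Q Q) (hx : ∀ i, x i ∈ maximalIdeal Q)
    (hD : IsUnit (Matrix.of fun i j => D i (x j)).det) :
    (Fintype.card ι : WithBot ℕ∞) ≤ ringKrullDim Q := by
  classical
  set M : Matrix ι ι Q := Matrix.of fun i j => D i (x j) with hM
  let E : ι → Derivation k Q Q := fun i => ∑ l, (M⁻¹ i l) • D l
  have hE : ∀ i j, E i (x j) = if i = j then 1 else 0 := by
    intro i j
    have h1 : E i (x j) = ∑ l, M⁻¹ i l * M l j := by
      have : ∀ (s : Finset ι), (∑ l ∈ s, (M⁻¹ i l) • D l : Derivation k Q Q) (x j) =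
          ∑ l ∈ s, M⁻¹ i l * M l j := by
        intro s
        induction s using Finset.induction_on with
        | empty => simp
        | insert a s ha ih =>
          rw [Finset.sum_insert ha, Finset.sum_insert ha, Derivation.add_apply, ih]
          simp [hM]
      exact this Finset.univ
    rw [h1, ← Matrix.mul_apply, Matrix.nonsing_inv_mul M hD, Matrix.one_apply]
  let e := Fintype.equivFin ι
  have := dim_ge_of_dual_derivations (k := k) (Fintype.card ι) Q (fun i => x (e.symm i))
    (fun i => E (e.symm i)) (fun i => hx _) (by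
      intro i j
      rw [hE]
      simp [e.symm.injective.eq_iff])
  exact this

end Vale.Agent.H23
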