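import Mathlib

/-!
Extension of derivations along formally etale maps (in particular localizations).
-/

namespace Vale.Agent.H23

open KaehlerDifferential

theorem exists_deriv_of_formallyEtale (R S T : Type*) [CommRing R] [CommRing S] [CommRing T]
    [Algebra R S] [Algebra R T] [Algebra S T] [IsScalarTower R S T] [Algebra.FormallyEtale S T]
    (θ : Derivation R S T) :
    ∃ θ' : Derivation R T T, ∀ s, θ' (algebraMap S T s) = θ s := by
  have hbc := KaehlerDifferential.isBaseChange_of_formallyEtale R S T
  let f : Ω[S⁄R] →ₗ[S] T := θ.liftKaehlerDifferential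
  refine ⟨(hbc.lift f).compDer (KaehlerDifferential.D R T), fun s => ?_⟩
  have h1 : hbc.lift f (KaehlerDifferential.map R R S T (KaehlerDifferential.D R S s)) =
      f (KaehlerDifferential.D R S s) := hbc.lift_eq f _
  rw [KaehlerDifferential.map_D] at h1
  have h2 : f (KaehlerDifferential.D R S s) = θ s := Derivation.liftKaehlerDifferential_comp_D θ s
  rw [← h2, ← h1]
  rfl

theorem exists_deriv_localization {R S : Type*} [CommRing R] [CommRing S] [Algebra R S]
    (M : Submonoid S) (T : Type*) [CommRing T] [Algebra R T] [Algebra S T] [IsScalarTower R S T]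
    [IsLocalization M T] (θ : Derivation R S S) :
    ∃ θ' : Derivation R T T, ∀ s, θ' (algebraMap S T s) = algebraMap S T (θ s) := by
  have : Algebra.FormallyEtale S T := Algebra.FormallyEtale.of_isLocalization (Rₘ := T) M
  obtain ⟨θ', h⟩ := exists_deriv_of_formallyEtale R S T
    ((Algebra.linearMap S T).compDer θ)
  exact ⟨θ', fun s => by rw [h]; rfl⟩

end Vale.Agent.H23
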