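import Mathlib

/-!
Isotypic decomposition for a finite abelian group acting on a complex vector space.
-/

namespace Vale.Agent.H23

open Finset

variable {G : Type*} [CommGroup G] [Fintype G]

noncomputable instance charFintype : Fintype (G →* ℂˣ) := by
  have : Finite (G →* ℂˣ) := by
    have e := (CommGroup.monoidHom_mulEquiv_of_hasEnoughRootsOfUnity G ℂ).some
    exact Finite.of_equiv G e.symm.toEquiv
  exact Fintype.ofFinite _

lemma card_char : Fintype.card (G →* ℂˣ) = Fintype.card G := by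
  have e := (CommGroup.monoidHom_mulEquiv_of_hasEnoughRootsOfUnity G ℂ).some
  exact Fintype.card_congr e.toEquiv

lemma sum_char_eq [DecidableEq G] (g : G) :
    ∑ χ : G →* ℂˣ, ((χ g : ℂˣ) : ℂ) = if g = 1 then (Fintype.card G : ℂ) else 0 := by
  split_ifs with h
  · subst h
    simp [card_char]
  · obtain ⟨ψ, hψ⟩ := CommGroup.exists_apply_ne_one_of_hasEnoughRootsOfUnity G ℂ h
    have h1 : ((ψ g : ℂˣ) : ℂ) * ∑ χ : G →* ℂˣ, ((χ g : ℂˣ) : ℂ)
        = ∑ χ : G →* ℂˣ, ((χ g : ℂˣ) : ℂ) := by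
      rw [Finset.mul_sum]
      refine Fintype.sum_equiv (Equiv.mulLeft ψ) _ _ (fun χ => ?_)
      simp
    have h2 : (((ψ g : ℂˣ) : ℂ) - 1) ≠ 0 := by
      intro h0
      apply hψ
      ext
      simpa using sub_eq_zero.mp h0
    have h3 : (((ψ g : ℂˣ) : ℂ) - 1) * ∑ χ : G →* ℂˣ, ((χ g : ℂˣ) : ℂ) = 0 := by
      rw [sub_mul, h1, one_mul, sub_self]
    exact (mul_eq_zero.mp h3).resolve_left h2

variable {V : Type*} [AddCommGroup V] [Module ℂ V]

/-- projection to the `χ`-isotypic part -/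
noncomputable def proj (ρ : G →* (V →ₗ[ℂ] V)) (χ : G →* ℂˣ) (v : V) : V :=
  (Fintype.card G : ℂ)⁻¹ • ∑ g : G, (((χ g)⁻¹ : ℂˣ) : ℂ) • ρ g v

lemma sum_proj (ρ : G →* (V →ₗ[ℂ] V)) (v : V) : ∑ χ : G →* ℂˣ, proj ρ χ v = v := by
  classical
  unfold proj
  rw [← Finset.smul_sum, Finset.sum_comm]
  have h1 : ∀ g : G, ∑ χ : G →* ℂˣ, (((χ g)⁻¹ : ℂˣ) : ℂ) • ρ g v =
      (if g = 1 then (Fintype.card G : ℂ) else 0) • ρ g v := by
    intro g
    rw [← Finset.sum_smul]
    have := sum_char_eq (g⁻¹)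
    simp only [map_inv, inv_eq_one] at this
    rw [this]
  rw [Finset.sum_congr rfl (fun g _ => h1 g)]
  simp only [ite_smul, zero_smul, Finset.sum_ite_eq', Finset.mem_univ, if_true, map_one]
  have hN : (Fintype.card G : ℂ) ≠ 0 := by
    exact_mod_cast Fintype.card_ne_zero
  rw [smul_smul, inv_mul_cancel₀ hN, one_smul]
  rfl

lemma map_proj (ρ : G →* (V →ₗ[ℂ] V)) (χ : G →* ℂˣ) (v : V) (h : G) :
    ρ h (proj ρ χ v) = ((χ h : ℂˣ) : ℂ) • proj ρ χ v := by
  unfold proj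
  rw [map_smul, map_sum, smul_comm]
  congr 1
  rw [Finset.smul_sum]
  refine Fintype.sum_equiv (Equiv.mulLeft h) _ _ (fun g => ?_)
  simp only [map_smul, Equiv.coe_mulLeft, map_mul, mul_inv, Units.val_mul]
  rw [smul_smul, ← mul_assoc]
  rw [Units.mul_inv, one_mul]
  rfl

/-- the projection lies in any subspace stable under the action -/
lemma proj_mem (ρ : G →* (V →ₗ[ℂ] V)) (χ : G →* ℂˣ) (v : V) (W : Submodule ℂ V)
    (h : ∀ g, ρ g v ∈ W) : proj ρ χ v ∈ W := by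
  unfold proj
  exact W.smul_mem _ (W.sum_mem fun g _ => W.smul_mem _ (h g))

end Vale.Agent.H23
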