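import Mathlib
import Vale.Agent.H23.Decomp

/-!
Homogeneous elements for a finite abelian group acting on a normal domain `A` with
invariant ring `S` a UFD.
-/

set_option linter.unusedSectionVars false

namespace Vale.Agent.H23

/-- `a` is homogeneous (semi-invariant) of character `χ`. -/
def IsHom {G A : Type*} [CommGroup G] [CommRing A] [Algebra ℂ A] [MulSemiringAction G A]
    (χ : G →* ℂˣ) (a : A) : Prop :=
  ∀ g : G, g • a = ((χ g : ℂˣ) : ℂ) • a

section chars

variable {G : Type*} [CommGroup G]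

lemma chi_pow_succ (χ : G →* ℂˣ) (n : ℕ) : χ ^ (n + 1) = χ ^ n * χ := pow_succ χ n

lemma chi_pow_succ' (χ : G →* ℂˣ) (n : ℕ) : χ ^ (n + 1) = χ * χ ^ n := pow_succ' χ n

lemma chi_mul_inv_one (χ : G →* ℂˣ) : χ * 1⁻¹ = χ := by ext g; simp

lemma chi_one_mul (χ : G →* ℂˣ) : 1 * χ = χ := by ext g; simp

lemma chi_mul_one (χ : G →* ℂˣ) : χ * 1 = χ := by ext g; simp

lemma chi_inv_mul (χ : G →* ℂˣ) : χ⁻¹ * χ = 1 := by ext g; simp

lemma chi_mul_inv (χ : G →* ℂˣ) : χ * χ⁻¹ = 1 := by ext g; simp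

lemma chi_mul_comm (χ ψ : G →* ℂˣ) : χ * ψ = ψ * χ := by ext g; simp [mul_comm]

lemma chi_mul_assoc (χ ψ φ : G →* ℂˣ) : χ * ψ * φ = χ * (ψ * φ) := by ext g; simp [mul_assoc]

end chars

section basic

variable {G S A : Type*} [CommGroup G] [Fintype G]
  [CommRing S] [IsDomain S] [Algebra ℂ S]
  [CommRing A] [IsDomain A] [Algebra ℂ A]
  [Algebra S A] [IsScalarTower ℂ S A] [FaithfulSMul S A]
  [MulSemiringAction G A] [SMulCommClass G ℂ A] [SMulCommClass G S A]
  [Algebra.IsInvariant S A G]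

lemma IsHom.mul {χ ψ : G →* ℂˣ} {a b : A} (ha : IsHom χ a) (hb : IsHom ψ b) :
    IsHom (χ * ψ) (a * b) := by
  intro g
  rw [smul_mul', ha g, hb g, smul_mul_smul_comm]
  simp

lemma IsHom.pow {χ : G →* ℂˣ} {a : A} (ha : IsHom χ a) (n : ℕ) :
    IsHom (χ ^ n) (a ^ n) := by
  induction n with
  | zero => intro g; simp
  | succ n ih => rw [chi_pow_succ, pow_succ]; exact ih.mul ha

lemma IsHom.csmul {χ : G →* ℂˣ} {a : A} (ha : IsHom χ a) (c : ℂ) : IsHom χ (c • a) := by
  intro g
  rw [smul_comm, ha g, smul_comm]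

lemma IsHom.add {χ : G →* ℂˣ} {a b : A} (ha : IsHom χ a) (hb : IsHom χ b) :
    IsHom χ (a + b) := by
  intro g
  rw [smul_add, ha g, hb g, smul_add]

lemma IsHom.zero (χ : G →* ℂˣ) : IsHom χ (0 : A) := by
  intro g; simp

lemma isHom_algebraMap (s : S) : IsHom (1 : G →* ℂˣ) (algebraMap S A s) := by
  intro g
  rw [Algebra.algebraMap_eq_smul_one, smul_comm, smul_one]
  simp

lemma IsHom.exists_of_one {a : A} (ha : IsHom (1 : G →* ℂˣ) a) :
    ∃ s : S, algebraMap S A s = a :=
  Algebra.IsInvariant.isInvariant (A := S) (B := A) (G := G) a (fun g => by simpa using ha g)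

lemma char_pow_card (χ : G →* ℂˣ) : χ ^ (Fintype.card G) = 1 := by
  ext g
  have : (χ g) ^ Fintype.card G = 1 := by
    rw [← map_pow, pow_card_eq_one, map_one]
  rw [MonoidHom.pow_apply, this]
  simp

lemma IsHom.exists_pow {χ : G →* ℂˣ} {a : A} (ha : IsHom χ a) :
    ∃ s : S, algebraMap S A s = a ^ (Fintype.card G) := by
  apply IsHom.exists_of_one (G := G)
  have := ha.pow (Fintype.card G)
  rwa [char_pow_card] at this

lemma IsHom.of_mul {χ ψ : G →* ℂˣ} {a b : A} (hab : IsHom χ (a * b)) (ha : IsHom ψ a)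
    (h0 : a ≠ 0) : IsHom (χ * ψ⁻¹) b := by
  intro g
  have h1 := hab g
  rw [smul_mul', ha g] at h1
  have h2 : ((ψ g : ℂˣ) : ℂ) • (g • b) = ((χ g : ℂˣ) : ℂ) • b := by
    apply mul_left_cancel₀ h0
    rw [mul_smul_comm, ← smul_mul_assoc, h1, mul_smul_comm]
  have h3 : g • b = ((ψ g)⁻¹ : ℂˣ).val • (((ψ g : ℂˣ) : ℂ) • (g • b)) := by
    rw [smul_smul, Units.inv_mul, one_smul]
  rw [h3, h2, smul_smul]
  simp [mul_comm]

include G in
variable (G) in
lemma dvd_of_algebraMap_dvd {s t : S} (h : algebraMap S A s ∣ algebraMap S A t) : s ∣ t := by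
  have hinj : Function.Injective (algebraMap S A) := FaithfulSMul.algebraMap_injective S A
  by_cases hs : s = 0
  · subst hs
    rw [map_zero, zero_dvd_iff] at h
    have : t = 0 := by
      apply hinj; rw [h, map_zero]
    rw [this]
  · obtain ⟨b, hb⟩ := h
    have hs' : algebraMap S A s ≠ 0 := by
      intro h0; apply hs; apply hinj; rw [h0, map_zero]
    have h1 : IsHom (1 : G →* ℂˣ) (algebraMap S A s * b) := by
      rw [← hb]; exact isHom_algebraMap t
    have h2 := h1.of_mul (isHom_algebraMap s) hs'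
    have h3 : IsHom (1 : G →* ℂˣ) b := by rwa [chi_mul_inv_one] at h2
    obtain ⟨c, hc⟩ := h3.exists_of_one (S := S)
    refine ⟨c, hinj ?_⟩
    rw [map_mul, hc, hb]

end basic

section projA

variable {G A : Type*} [CommGroup G] [Fintype G] [CommRing A] [Algebra ℂ A]
  [MulSemiringAction G A] [SMulCommClass G ℂ A]

/-- the representation of `G` on `A` -/
def rhoA (G A : Type*) [CommGroup G] [CommRing A] [Algebra ℂ A]
    [MulSemiringAction G A] [SMulCommClass G ℂ A] : G →* (A →ₗ[ℂ] A) where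
  toFun g :=
    { toFun := fun a => g • a
      map_add' := smul_add g
      map_smul' := fun c a => by rw [smul_comm]; rfl }
  map_one' := by ext a; simp
  map_mul' g h := by ext a; simp [mul_smul]

lemma rhoA_apply (g : G) (a : A) : rhoA G A g a = g • a := rfl

lemma isHom_proj (χ : G →* ℂˣ) (a : A) : IsHom χ (proj (rhoA G A) χ a) := by
  intro g
  exact map_proj (rhoA G A) χ a g

end projA

section norm

variable {G S A : Type*} [CommGroup G] [Fintype G]
  [CommRing S] [IsDomain S] [Algebra ℂ S]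
  [CommRing A] [IsDomain A] [Algebra ℂ A]
  [Algebra S A] [IsScalarTower ℂ S A] [FaithfulSMul S A]
  [MulSemiringAction G A] [SMulCommClass G ℂ A] [SMulCommClass G S A]
  [Algebra.IsInvariant S A G]

open Classical in
variable (G S) in
/-- `nm a` is the element of `S` mapping to `a ^ |G|` (for homogeneous `a`). -/
noncomputable def nm (a : A) : S :=
  if h : ∃ s : S, algebraMap S A s = a ^ (Fintype.card G) then h.choose else 0

lemma algebraMap_nm {χ : G →* ℂˣ} {a : A} (ha : IsHom χ a) :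
    algebraMap S A (nm G S a) = a ^ (Fintype.card G) := by
  have h := ha.exists_pow (S := S)
  unfold nm
  rw [dif_pos h]
  exact h.choose_spec

lemma nm_ne_zero {χ : G →* ℂˣ} {a : A} (ha : IsHom χ a) (h0 : a ≠ 0) : nm G S a ≠ 0 := by
  intro h
  have := algebraMap_nm (S := S) ha
  rw [h, map_zero] at this
  exact pow_ne_zero _ h0 this.symm

lemma nm_mul {χ ψ : G →* ℂˣ} {a b : A} (ha : IsHom χ a) (hb : IsHom ψ b) :
    nm G S (a * b) = nm G S a * nm G S b := by
  apply FaithfulSMul.algebraMap_injective S A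
  rw [map_mul, algebraMap_nm ha, algebraMap_nm hb, algebraMap_nm (ha.mul hb), mul_pow]

lemma nm_algebraMap (s : S) : nm G S (algebraMap S A s) = s ^ (Fintype.card G) := by
  apply FaithfulSMul.algebraMap_injective S A
  rw [algebraMap_nm (isHom_algebraMap (G := G) s), map_pow]

lemma dvd_iff_nm_dvd [IsIntegrallyClosed A] {χ ψ : G →* ℂˣ} {a b : A} (ha : IsHom χ a)
    (hb : IsHom ψ b) : a ∣ b ↔ nm G S a ∣ nm G S b := by
  rw [← IsIntegrallyClosed.pow_dvd_pow_iff (n := Fintype.card G) Fintype.card_ne_zero,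
    ← algebraMap_nm (S := S) ha, ← algebraMap_nm (S := S) hb]
  exact ⟨fun h => dvd_of_algebraMap_dvd G h, fun h => map_dvd _ h⟩

variable (G) in
/-- the (scaled) valuation of a homogeneous element at a prime of `S` -/
noncomputable def vl (π : S) (a : A) : ℕ := multiplicity π (nm G S a)

variable [UniqueFactorizationMonoid S] {π : S}

lemma vl_mul (hπ : Prime π) {χ ψ : G →* ℂˣ} {a b : A} (ha : IsHom χ a) (hb : IsHom ψ b)
    (ha0 : a ≠ 0) (hb0 : b ≠ 0) : vl G π (a * b) = vl G π a + vl G π b := by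
  unfold vl
  rw [nm_mul ha hb]
  apply multiplicity_mul hπ
  apply FiniteMultiplicity.of_prime_left hπ
  exact mul_ne_zero (nm_ne_zero ha ha0) (nm_ne_zero hb hb0)

lemma vl_algebraMap (hπ : Prime π) {s : S} (hs : s ≠ 0) :
    vl G π (algebraMap S A s) = Fintype.card G * multiplicity π s := by
  unfold vl
  rw [nm_algebraMap]
  exact FiniteMultiplicity.multiplicity_pow hπ (FiniteMultiplicity.of_prime_left hπ hs)

lemma pow_dvd_iff_le_vl [IsIntegrallyClosed A] (hπ : Prime π) {χ : G →* ℂˣ} {a : A}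
    (ha : IsHom χ a) (ha0 : a ≠ 0) (r : ℕ) :
    (algebraMap S A π) ^ r ∣ a ↔ r * Fintype.card G ≤ vl G π a := by
  rw [← map_pow, dvd_iff_nm_dvd (isHom_algebraMap (π ^ r)) ha (S := S), nm_algebraMap, ← pow_mul]
  exact FiniteMultiplicity.pow_dvd_iff_le_multiplicity
    (FiniteMultiplicity.of_prime_left hπ (nm_ne_zero ha ha0))

end norm

section gen

variable {G S A : Type*} [CommGroup G] [Fintype G]
  [CommRing S] [IsDomain S] [UniqueFactorizationMonoid S] [Algebra ℂ S]
  [CommRing A] [IsDomain A] [IsNoetherianRing A] [IsIntegrallyClosed A] [Algebra ℂ A]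
  [Algebra S A] [IsScalarTower ℂ S A] [FaithfulSMul S A]
  [MulSemiringAction G A] [SMulCommClass G ℂ A] [SMulCommClass G S A]
  [Algebra.IsInvariant S A G]

variable (G S A) in
/-- each isotypic part is generated over `S` by one element -/
theorem exists_generator (χ : G →* ℂˣ) :
    ∃ h : A, IsHom χ h ∧ ∀ a : A, IsHom χ a → ∃ s : S, a = algebraMap S A s * h := by
  classical
  by_cases hex : ∃ a : A, IsHom χ a ∧ a ≠ 0
  · have hwf : WellFounded (DvdNotUnit : A → A → Prop) := _root_.wellFounded_dvdNotUnit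
    obtain ⟨h, ⟨hh, hh0⟩, hmin⟩ := hwf.has_min {a : A | IsHom χ a ∧ a ≠ 0} hex
    refine ⟨h, hh, fun a ha => ?_⟩
    obtain ⟨m, hm⟩ : ∃ m, Fintype.card G = m + 1 :=
      Nat.exists_eq_succ_of_ne_zero Fintype.card_ne_zero
    -- the two invariant elements
    have hh1 : IsHom (1 : G →* ℂˣ) (h * h ^ m) := by
      have h1 := hh.mul (hh.pow m)
      rwa [← chi_pow_succ', ← hm, char_pow_card] at h1
    have ha1 : IsHom (1 : G →* ℂˣ) (a * h ^ m) := by
      have h1 := ha.mul (hh.pow m)
      rwa [← chi_pow_succ', ← hm, char_pow_card] at h1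
    obtain ⟨x, hx⟩ := hh1.exists_of_one (S := S)
    obtain ⟨y, hy⟩ := ha1.exists_of_one (S := S)
    let _ := UniqueFactorizationMonoid.toGCDMonoid S
    have hinj : Function.Injective (algebraMap S A) := FaithfulSMul.algebraMap_injective S A
    have hx0 : x ≠ 0 := by
      intro h0; rw [h0, map_zero] at hx
      exact (mul_ne_zero hh0 (pow_ne_zero _ hh0)) hx.symm
    set g := gcd x y with hg
    obtain ⟨x', hx'⟩ : g ∣ x := gcd_dvd_left x y
    obtain ⟨y', hy'⟩ : g ∣ y := gcd_dvd_right x y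
    have hg0 : g ≠ 0 := by
      intro h0; rw [h0, zero_mul] at hx'; exact hx0 hx'
    have hcop : IsRelPrime x' y' := by
      intro d hd1 hd2
      have h1 : g * d ∣ g := by
        conv_rhs => rw [hg]
        apply dvd_gcd
        · rw [hx']; exact mul_dvd_mul_left _ hd1
        · rw [hy']; exact mul_dvd_mul_left _ hd2
      have h2 : g * d ∣ g * 1 := by simpa using h1
      exact isUnit_of_dvd_one ((mul_dvd_mul_iff_left hg0).mp h2)
    -- x ^ m divides g ^ N
    have hnx : x = nm G S h := by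
      apply hinj
      rw [algebraMap_nm hh, hx, hm, pow_succ']
    have hdvd : x ^ m ∣ g ^ (m + 1) := by
      have h1 : x ^ m ∣ g ^ (m + 1) * x' ^ (m + 1) := by
        rw [← mul_pow, ← hx']; exact pow_dvd_pow _ (Nat.le_succ m)
      have h2 : x ^ m ∣ g ^ (m + 1) * y' ^ (m + 1) := by
        rw [← mul_pow, ← hy']
        have : y ^ (m + 1) = nm G S a * x ^ m := by
          apply hinj
          rw [map_pow, map_mul, map_pow, hy, hx, algebraMap_nm ha, hm]
          ring
        rw [this]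
        exact Dvd.intro_left _ rfl
      have hcop' : IsRelPrime (x' ^ (m + 1)) (y' ^ (m + 1)) := hcop.pow
      have h3 : x ^ m ∣ gcd (g ^ (m + 1) * x' ^ (m + 1)) (g ^ (m + 1) * y' ^ (m + 1)) :=
        dvd_gcd h1 h2
      have h4 := h3.trans (_root_.gcd_mul_left' _ _ _).dvd
      have h5 : IsUnit (gcd (x' ^ (m + 1)) (y' ^ (m + 1))) :=
        hcop' (gcd_dvd_left _ _) (gcd_dvd_right _ _)
      exact (IsUnit.dvd_mul_right h5).mp h4
    have hdvd' : h ^ m ∣ algebraMap S A g := by
      rw [dvd_iff_nm_dvd (S := S) (hh.pow m) (isHom_algebraMap g), nm_algebraMap, hm]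
      have : nm G S (h ^ m) = x ^ m := by
        apply hinj
        rw [algebraMap_nm (hh.pow m), map_pow, hnx, algebraMap_nm hh, ← pow_mul, ← pow_mul,
          mul_comm]
      rw [this]
      exact hdvd
    obtain ⟨g', hg'⟩ := hdvd'
    have hh : h = g' * algebraMap S A x' := by
      apply mul_right_cancel₀ (pow_ne_zero m hh0)
      rw [← hx, hx', map_mul, hg']; ring
    have haa : a = g' * algebraMap S A y' := by
      apply mul_right_cancel₀ (pow_ne_zero m hh0)
      rw [← hy, hy', map_mul, hg']; ring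
    have hx'0 : x' ≠ 0 := by
      intro h0; rw [h0, mul_zero] at hx'; exact hx0 hx'
    have hx'A : algebraMap S A x' ≠ 0 := by
      intro h0; apply hx'0; apply hinj; rw [h0, map_zero]
    have hg'0 : g' ≠ 0 := by
      intro h0; rw [h0, zero_mul] at hh; exact hh0 hh
    have hg'hom : IsHom χ g' := by
      have h1 : IsHom χ (algebraMap S A x' * g') := by
        rw [mul_comm, ← hh]; assumption
      have h2 := h1.of_mul (isHom_algebraMap x') hx'A
      rwa [chi_mul_inv_one] at h2
    have hnot := hmin g' ⟨hg'hom, hg'0⟩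
    have hunit : IsUnit (algebraMap S A x') := by
      by_contra hnu
      exact hnot ⟨hg'0, algebraMap S A x', hnu, hh⟩
    have hunit' : IsUnit x' := by
      rw [isUnit_iff_dvd_one]
      apply dvd_of_algebraMap_dvd G (A := A)
      rw [map_one]
      exact isUnit_iff_dvd_one.mp hunit
    obtain ⟨u, hu⟩ := hunit'
    refine ⟨((u⁻¹ : Sˣ) : S) * y', ?_⟩
    rw [haa, hh, ← hu, map_mul]
    have : algebraMap S A ((u⁻¹ : Sˣ) : S) * algebraMap S A (u : S) = 1 := by
      rw [← map_mul]; simp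
    calc g' * algebraMap S A y' = (algebraMap S A ((u⁻¹ : Sˣ) : S) * algebraMap S A (u : S)) *
        (g' * algebraMap S A y') := by rw [this, one_mul]
      _ = _ := by ring
  · push Not at hex
    refine ⟨0, IsHom.zero χ, fun a ha => ⟨0, ?_⟩⟩
    rw [hex a ha]; simp

end gen

end Vale.Agent.H23
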