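import Mathlib
import Vale.Agent.H23.Homog

/-!
Homogeneous derivations, integrality and coefficient extraction.
-/

set_option linter.unusedSectionVars false

namespace Vale.Agent.H23

lemma deriv_sum_apply {R A ι : Type*} [CommRing R] [CommRing A] [Algebra R A] (s : Finset ι)
    (c : ι → A) (D : ι → Derivation R A A) (a : A) :
    (∑ i ∈ s, c i • D i) a = ∑ i ∈ s, c i * D i a := by
  classical
  induction s using Finset.induction_on with
  | empty => simp
  | insert i s hi ih => rw [Finset.sum_insert hi, Finset.sum_insert hi, Derivation.add_apply, ih]; simp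

/-- dividing a derivation by an element dividing all its values -/
lemma exists_deriv_div {R A : Type*} [CommRing R] [CommRing A] [IsDomain A] [Algebra R A]
    (F : Derivation R A A) (p : A) (hp : p ≠ 0) (h : ∀ a, p ∣ F a) :
    ∃ F' : Derivation R A A, F = p • F' := by
  choose f hf using h
  let L : A →ₗ[R] A :=
    { toFun := f
      map_add' := fun a b => by
        apply mul_left_cancel₀ hp
        rw [← hf, map_add, hf a, hf b, mul_add]
      map_smul' := fun r a => by
        apply mul_left_cancel₀ hp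
        rw [← hf, Derivation.map_smul, hf a, RingHom.id_apply, mul_smul_comm] }
  refine ⟨Derivation.mk' L (fun a b => ?_), ?_⟩
  · apply mul_left_cancel₀ hp
    change p * f (a * b) = p * (a • f b + b • f a)
    rw [← hf, Derivation.leibniz, hf a, hf b]
    simp only [smul_eq_mul]; ring
  · ext a
    change F a = p • f a
    rw [hf a]; rfl

section

variable {G A : Type*} [CommGroup G] [Fintype G]
  [CommRing A] [Algebra ℂ A]
  [MulSemiringAction G A] [SMulCommClass G ℂ A]

/-- conjugation of a derivation by a group element -/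
def conjD (g : G) (D : Derivation ℂ A A) : Derivation ℂ A A :=
  Derivation.mk'
    { toFun := fun a => g • D (g⁻¹ • a)
      map_add' := fun a b => by rw [smul_add, map_add, smul_add]
      map_smul' := fun c a => by
        rw [smul_comm (g⁻¹) c a, Derivation.map_smul, smul_comm g c, RingHom.id_apply] }
    (fun a b => by
      change g • D (g⁻¹ • (a * b)) = a • (g • D (g⁻¹ • b)) + b • (g • D (g⁻¹ • a))
      rw [smul_mul', Derivation.leibniz, smul_add]
      simp only [smul_eq_mul, smul_mul', smul_inv_smul])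

@[simp] lemma conjD_apply (g : G) (D : Derivation ℂ A A) (a : A) :
    conjD g D a = g • D (g⁻¹ • a) := rfl

variable (G A) in
/-- the representation of `G` on derivations -/
def rhoD : G →* (Derivation ℂ A A →ₗ[ℂ] Derivation ℂ A A) where
  toFun g :=
    { toFun := conjD g
      map_add' := fun D E => by ext a; simp
      map_smul' := fun c D => by ext a; simp [smul_comm g c] }
  map_one' := by ext D a; simp
  map_mul' g h := by
    ext D a
    simp [mul_smul]

lemma rhoD_apply (g : G) (D : Derivation ℂ A A) (a : A) :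
    rhoD G A g D a = g • D (g⁻¹ • a) := rfl

/-- homogeneous derivation of character `χ` -/
def IsHomD (χ : G →* ℂˣ) (D : Derivation ℂ A A) : Prop :=
  ∀ (g : G) (a : A), g • D (g⁻¹ • a) = ((χ g : ℂˣ) : ℂ) • D a

lemma isHomD_proj (χ : G →* ℂˣ) (D : Derivation ℂ A A) : IsHomD χ (proj (rhoD G A) χ D) := by
  intro g a
  have := map_proj (rhoD G A) χ D g
  have h2 := congrArg (fun E : Derivation ℂ A A => E a) this
  simpa [rhoD_apply] using h2

lemma IsHomD.apply {χ ψ : G →* ℂˣ} {D : Derivation ℂ A A} (hD : IsHomD χ D) {a : A}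
    (ha : IsHom ψ a) : IsHom (ψ * χ) (D a) := by
  intro g
  have h := hD g (g • a)
  rw [inv_smul_smul, ha g, Derivation.map_smul] at h
  rw [h, smul_smul]
  simp [mul_comm]

lemma IsHomD.smul {χ ψ : G →* ℂˣ} {D : Derivation ℂ A A} (hD : IsHomD χ D) {c : A}
    (hc : IsHom ψ c) : IsHomD (ψ * χ) (c • D) := by
  intro g a
  rw [Derivation.smul_apply, Derivation.smul_apply, smul_eq_mul, smul_mul', hc g, hD g a,
    smul_mul_smul_comm]
  simp

lemma IsHomD.add {χ : G →* ℂˣ} {D E : Derivation ℂ A A} (hD : IsHomD χ D) (hE : IsHomD χ E) :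
    IsHomD χ (D + E) := by
  intro g a
  simp only [Derivation.add_apply, smul_add, hD g a, hE g a]

lemma IsHomD.sum {ι : Type*} {χ : G →* ℂˣ} (s : Finset ι) {D : ι → Derivation ℂ A A}
    (hD : ∀ i ∈ s, IsHomD χ (D i)) : IsHomD χ (∑ i ∈ s, D i) := by
  classical
  induction s using Finset.induction_on with
  | empty => intro g a; simp
  | insert i s hi ih =>
    rw [Finset.sum_insert hi]
    exact (hD i (Finset.mem_insert_self i s)).add
      (ih (fun j hj => hD j (Finset.mem_insert_of_mem hj)))

end

section S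

variable {G S A : Type*} [CommGroup G] [Fintype G]
  [CommRing S] [IsDomain S] [Algebra ℂ S]
  [CommRing A] [IsDomain A] [Algebra ℂ A]
  [Algebra S A] [IsScalarTower ℂ S A] [FaithfulSMul S A]
  [MulSemiringAction G A] [SMulCommClass G ℂ A] [SMulCommClass G S A]
  [Algebra.IsInvariant S A G]

/-- restriction of a homogeneous derivation to the invariants, divided by the generator. -/
theorem exists_theta {χ : G →* ℂˣ} {D : Derivation ℂ A A} (hD : IsHomD χ D) {h : A}
    (hgen : ∀ a : A, IsHom χ a → ∃ s : S, a = algebraMap S A s * h) (h0 : h ≠ 0) :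
    ∃ θ : Derivation ℂ S S, ∀ s, D (algebraMap S A s) = algebraMap S A (θ s) * h := by
  have hinj : Function.Injective (algebraMap S A) := FaithfulSMul.algebraMap_injective S A
  have h1 : ∀ s : S, ∃ t : S, D (algebraMap S A s) = algebraMap S A t * h := by
    intro s
    apply hgen
    have := hD.apply (isHom_algebraMap (G := G) s)
    rwa [chi_one_mul] at this
  choose f hf using h1
  have hcan : ∀ x y : S, algebraMap S A x * h = algebraMap S A y * h → x = y := fun x y hxy =>
    hinj (mul_right_cancel₀ h0 hxy)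
  let L : S →ₗ[ℂ] S :=
    { toFun := f
      map_add' := fun a b => by
        apply hcan
        rw [← hf, map_add, map_add, hf a, hf b, map_add, add_mul]
      map_smul' := fun r a => by
        apply hcan
        have : algebraMap S A (r • a) = r • algebraMap S A a := by
          rw [algebraMap_smul_eq]
        rw [← hf, this, Derivation.map_smul, hf a, RingHom.id_apply]
        have : algebraMap S A (r • f a) = r • algebraMap S A (f a) := by
          rw [algebraMap_smul_eq]
        rw [this, smul_mul_assoc] }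
  refine ⟨Derivation.mk' L (fun a b => ?_), hf⟩
  apply hcan
  change algebraMap S A (f (a * b)) * h = algebraMap S A (a • f b + b • f a) * h
  rw [← hf, map_mul, Derivation.leibniz, hf a, hf b]
  simp only [smul_eq_mul, map_add, map_mul]; ring
where
  algebraMap_smul_eq {r : ℂ} {a : S} : algebraMap S A (r • a) = r • algebraMap S A a := by
    rw [Algebra.algebraMap_eq_smul_one, Algebra.algebraMap_eq_smul_one, smul_assoc]

/-- `a ^ N` and derivations: `N * nm a * F a = a * F (nm a)`. -/
lemma card_mul_nm_mul {ψ : G →* ℂˣ} (F : Derivation ℂ A A) {a : A} (ha : IsHom ψ a) :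
    (Fintype.card G : A) * (algebraMap S A (nm G S a) * F a) =
      a * F (algebraMap S A (nm G S a)) := by
  rw [algebraMap_nm ha, Derivation.leibniz_pow]
  obtain ⟨m, hm⟩ : ∃ m, Fintype.card G = m + 1 :=
    Nat.exists_eq_succ_of_ne_zero Fintype.card_ne_zero
  rw [hm]
  simp only [smul_eq_mul, nsmul_eq_mul, Nat.add_sub_cancel]
  ring

lemma card_isUnit : IsUnit (Fintype.card G : A) := by
  have h : (Fintype.card G : A) = algebraMap ℂ A (Fintype.card G : ℂ) := by simp
  rw [h]
  apply IsUnit.map
  rw [isUnit_iff_ne_zero]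
  exact_mod_cast Fintype.card_ne_zero

variable [UniqueFactorizationMonoid S] [IsIntegrallyClosed A] {π : S}

/-- derivative of `π ^ (q+1) * t'`. -/
lemma deriv_pow_succ_mul (θ : Derivation ℂ S S) (π t' : S) (q : ℕ) :
    θ (π ^ (q + 1) * t') = π ^ q * (((q : S) + 1) * t' * θ π + π * θ t') := by
  rw [Derivation.leibniz, Derivation.leibniz_pow]
  simp only [smul_eq_mul, nsmul_eq_mul, Nat.add_sub_cancel]
  push_cast
  ring

theorem integrality (hπ : Prime π) (F : Derivation ℂ A A) {φ : G →* ℂˣ} (hF : IsHomD φ F)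
    (w : A) (θ' : Derivation ℂ S S)
    (hFS : ∀ s, F (algebraMap S A s) = w * algebraMap S A (θ' s)) (r : ℕ)
    (hr : algebraMap S A π ^ r ∣ w)
    (H : π ∣ θ' π ∨ ∀ (ψ : G →* ℂˣ) (a : A), IsHom ψ a → a ≠ 0 → π ∣ nm G S a →
      algebraMap S A π ^ (r + 1) ∣ w * a) :
    ∀ a, algebraMap S A π ^ r ∣ F a := by
  have hinj : Function.Injective (algebraMap S A) := FaithfulSMul.algebraMap_injective S A
  have hN : IsUnit (Fintype.card G : A) := card_isUnit (G := G)
  have hπA : algebraMap S A π ≠ 0 := by
    intro h0; exact hπ.ne_zero (hinj (by rw [h0, map_zero]))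
  -- homogeneous case
  have hom : ∀ (ψ : G →* ℂˣ) (a : A), IsHom ψ a → algebraMap S A π ^ r ∣ F a := by
    intro ψ a ha
    by_cases ha0 : a = 0
    · subst ha0; simp
    by_cases hFa0 : F a = 0
    · rw [hFa0]; exact dvd_zero _
    have hn0 := nm_ne_zero (S := S) ha ha0
    obtain ⟨q, t', ht', hq⟩ := WfDvdMonoid.max_power_factor' hn0 hπ.not_isUnit
    have ht'0 : t' ≠ 0 := by
      rintro rfl; exact ht' (dvd_zero _)
    have ht'A : algebraMap S A t' ≠ 0 := by
      intro h0; exact ht'0 (hinj (by rw [h0, map_zero]))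
    have key := card_mul_nm_mul (S := S) F ha
    rw [hFS, hq] at key
    -- it suffices to divide t' * F a
    suffices hs : algebraMap S A π ^ r ∣ algebraMap S A t' * F a by
      have hFahom : IsHom (ψ * φ) (F a) := hF.apply ha
      rw [pow_dvd_iff_le_vl hπ hFahom hFa0]
      have h1 := (pow_dvd_iff_le_vl hπ ((isHom_algebraMap (G := G) t').mul hFahom)
        (mul_ne_zero ht'A hFa0) r).mp hs
      rw [vl_mul hπ (isHom_algebraMap (G := G) t') hFahom ht'A hFa0, vl_algebraMap hπ ht'0,
        multiplicity_eq_zero.mpr ht'] at h1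
      simpa using h1
    rcases H with H | H
    · obtain ⟨z, hz⟩ := H
      -- θ' (π^q t') = π^q * (...)
      have hθ : ∃ y, θ' (π ^ q * t') = π ^ q * y := by
        rcases q with _ | q
        · exact ⟨θ' t', by simp⟩
        · rw [deriv_pow_succ_mul, hz]
          exact ⟨((q : S) + 1) * t' * z + θ' t', by ring⟩
      obtain ⟨y, hy⟩ := hθ
      rw [hy, map_mul, map_mul, map_pow] at key
      have h2 : (Fintype.card G : A) * (algebraMap S A t' * F a) = a * (w * algebraMap S A y) := by
        apply mul_left_cancel₀ (pow_ne_zero q hπA)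
        linear_combination key
      have h3 : algebraMap S A π ^ r ∣ (Fintype.card G : A) * (algebraMap S A t' * F a) := by
        rw [h2]
        exact Dvd.dvd.mul_left (Dvd.dvd.mul_right hr _) _
      exact (hN.dvd_mul_left).mp h3
    · rcases q with _ | q
      · simp only [pow_zero, one_mul] at key
        have h3 : algebraMap S A π ^ r ∣ (Fintype.card G : A) * (algebraMap S A t' * F a) := by
          rw [key]
          exact Dvd.dvd.mul_left (Dvd.dvd.mul_right hr _) _
        exact (hN.dvd_mul_left).mp h3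
      · have hd : π ∣ nm G S a := by
          rw [hq, pow_succ]
          exact Dvd.dvd.mul_right (Dvd.intro_left _ rfl) _
        obtain ⟨u, hu⟩ := H ψ a ha ha0 hd
        rw [deriv_pow_succ_mul, map_mul, map_mul, map_pow, map_pow] at key
        have h2 : (Fintype.card G : A) * (algebraMap S A t' * F a) =
            algebraMap S A π ^ r * (u * algebraMap S A (((q : S) + 1) * t' * θ' π + π * θ' t')) := by
          apply mul_left_cancel₀ (pow_ne_zero (q + 1) hπA)
          have e1 : algebraMap S A π ^ (q + 1) * ((Fintype.card G : A) * (algebraMap S A t' * F a))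
              = a * (w * (algebraMap S A π ^ q *
                algebraMap S A (((q : S) + 1) * t' * θ' π + π * θ' t'))) := by
            rw [← key]; ring
          rw [e1]
          calc a * (w * (algebraMap S A π ^ q *
                algebraMap S A (((q : S) + 1) * t' * θ' π + π * θ' t')))
              = (w * a) * (algebraMap S A π ^ q *
                algebraMap S A (((q : S) + 1) * t' * θ' π + π * θ' t')) := by ring
            _ = _ := by rw [hu]; ring
        have h3 : algebraMap S A π ^ r ∣ (Fintype.card G : A) * (algebraMap S A t' * F a) := by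
          rw [h2]; exact Dvd.intro _ rfl
        exact (hN.dvd_mul_left).mp h3
  intro a
  have : a = ∑ χ : G →* ℂˣ, proj (rhoA G A) χ a := (sum_proj (rhoA G A) a).symm
  rw [this, map_sum]
  exact Finset.dvd_sum (fun χ _ => hom χ _ (isHom_proj χ a))

/-- `D_i` is a local frame of derivations at the prime `m`. -/
structure LocalFrame {ι : Type*} [Fintype ι] (m : Ideal A) (D : ι → Derivation ℂ A A) : Prop where
  span : ∀ E : Derivation ℂ A A, ∃ b, b ∉ m ∧ ∃ c : ι → A, b • E = ∑ i, c i • D i
  indep : ∀ c : ι → A, ∑ i, c i • D i = 0 → ∀ i, c i = 0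

/-- denominators can be taken in `S` for homogeneous derivations and frames -/
theorem exists_denominator {ι : Type*} [Fintype ι] {m : Ideal A} [m.IsPrime]
    {D : ι → Derivation ℂ A A} {χ : ι → (G →* ℂˣ)} (hD : ∀ i, IsHomD (χ i) (D i))
    (hfr : LocalFrame m D) {φ : G →* ℂˣ} {E : Derivation ℂ A A} (hE : IsHomD φ E) :
    ∃ s : S, algebraMap S A s ∉ m ∧ ∃ c : ι → A, algebraMap S A s • E = ∑ i, c i • D i := by
  obtain ⟨b, hb, c, hc⟩ := hfr.span E
  let I : Submodule ℂ A :=
    { carrier := {b | ∃ c : ι → A, b • E = ∑ i, c i • D i}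
      add_mem' := by
        rintro x y ⟨c, hc⟩ ⟨d, hd⟩
        exact ⟨c + d, by simp only [add_smul, hc, hd, Pi.add_apply, Finset.sum_add_distrib]⟩
      zero_mem' := ⟨0, by simp⟩
      smul_mem' := by
        rintro r x ⟨c, hc⟩
        exact ⟨r • c, by simp only [smul_assoc, hc, Pi.smul_apply, Finset.smul_sum]⟩ }
  have hmulI : ∀ x y : A, y ∈ I → x * y ∈ I := by
    rintro x y ⟨c, hc⟩
    exact ⟨fun i => x * c i, by simp only [mul_smul, hc, Finset.smul_sum]⟩
  have hgI : ∀ g : G, rhoA G A g b ∈ I := by
    intro g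
    refine ⟨fun i => (((φ g)⁻¹ : ℂˣ) : ℂ) • (((χ i g : ℂˣ) : ℂ) • (g • c i)), ?_⟩
    ext a
    rw [deriv_sum_apply, Derivation.smul_apply, rhoA_apply]
    have h1 := congrArg (fun K : Derivation ℂ A A => K (g⁻¹ • a)) hc
    simp only [Derivation.smul_apply, smul_eq_mul] at h1
    rw [deriv_sum_apply] at h1
    have h2 := congrArg (fun z => g • z) h1
    simp only [smul_mul', Finset.smul_sum] at h2
    rw [hE g a] at h2
    have h3 : ∀ i, g • D i (g⁻¹ • a) = ((χ i g : ℂˣ) : ℂ) • D i a := fun i => hD i g a
    simp only [h3] at h2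
    have h4 : (g • b) * E a = (((φ g)⁻¹ : ℂˣ) : ℂ) • ((g • b) * (((φ g : ℂˣ) : ℂ) • E a)) := by
      rw [mul_smul_comm, smul_smul, Units.inv_mul, one_smul]
    rw [smul_eq_mul, h4, h2, Finset.smul_sum]
    refine Finset.sum_congr rfl (fun i _ => ?_)
    simp only [smul_mul_assoc, mul_smul_comm]
  have hproj : ∀ ψ : G →* ℂˣ, proj (rhoA G A) ψ b ∈ I := fun ψ => proj_mem _ ψ b I hgI
  obtain ⟨ψ, hψ⟩ : ∃ ψ : G →* ℂˣ, proj (rhoA G A) ψ b ∉ m := by
    by_contra hcon
    push Not at hcon
    apply hb
    rw [← sum_proj (rhoA G A) b]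
    exact Ideal.sum_mem _ (fun ψ _ => hcon ψ)
  refine ⟨nm G S (proj (rhoA G A) ψ b), ?_, ?_⟩
  · rw [algebraMap_nm (isHom_proj ψ b)]
    intro h
    exact hψ (Ideal.IsPrime.mem_of_pow_mem inferInstance _ h)
  · rw [algebraMap_nm (isHom_proj ψ b)]
    obtain ⟨k, hk⟩ : ∃ k, Fintype.card G = k + 1 :=
      Nat.exists_eq_succ_of_ne_zero Fintype.card_ne_zero
    rw [hk, pow_succ]
    exact hmulI _ _ (hproj ψ)

/-- coefficient extraction -/
theorem coeff_vl {ι : Type*} [Fintype ι] {m : Ideal A} [m.IsPrime]
    {D : ι → Derivation ℂ A A} {χ : ι → (G →* ℂˣ)} (hD : ∀ i, IsHomD (χ i) (D i))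
    (hfr : LocalFrame m D) (hπ : Prime π) (hπm : algebraMap S A π ∈ m)
    {φ : G →* ℂˣ} (c : ι → A) (ψ : ι → (G →* ℂˣ)) (hc : ∀ i, IsHom (ψ i) (c i))
    (hφ : ∀ i, ψ i * χ i = φ) (r : ℕ)
    (hdvd : ∀ a, algebraMap S A π ^ r ∣ (∑ i, c i • D i) a) :
    ∀ i, c i ≠ 0 → r * Fintype.card G ≤ vl G π (c i) := by
  have hinj : Function.Injective (algebraMap S A) := FaithfulSMul.algebraMap_injective S A
  have hπA : algebraMap S A π ≠ 0 := by
    intro h0; exact hπ.ne_zero (hinj (by rw [h0, map_zero]))
  obtain ⟨F', hF'⟩ := exists_deriv_div (∑ i, c i • D i) _ (pow_ne_zero r hπA) hdvd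
  have hFhom : IsHomD φ (∑ i, c i • D i) := by
    apply IsHomD.sum
    intro i _
    rw [← hφ i]
    exact (hD i).smul (hc i)
  have hF'hom : IsHomD φ F' := by
    intro g a
    have h1 := hFhom g a
    rw [hF'] at h1
    simp only [Derivation.smul_apply, smul_eq_mul, smul_mul'] at h1
    have h2 : g • (algebraMap S A π ^ r) = algebraMap S A π ^ r := by
      rw [← map_pow]
      have := isHom_algebraMap (G := G) (A := A) (π ^ r) g
      simpa using this
    rw [h2, ← mul_smul_comm] at h1
    exact mul_left_cancel₀ (pow_ne_zero r hπA) h1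
  obtain ⟨s, hs, d, hd⟩ := exists_denominator (S := S) hD hfr hF'hom
  intro i hci
  have h1 : ∑ i, (algebraMap S A s * c i - algebraMap S A π ^ r * d i) • D i = 0 := by
    have h2 : algebraMap S A s • (∑ i, c i • D i) = algebraMap S A π ^ r • ∑ i, d i • D i := by
      rw [hF', ← hd, smul_comm]
    simp only [sub_smul, mul_smul, Finset.sum_sub_distrib]
    rw [← Finset.smul_sum, ← Finset.smul_sum, h2, sub_self]
  have h2 := hfr.indep _ h1 i
  have h3 : algebraMap S A π ^ r ∣ algebraMap S A s * c i := ⟨d i, sub_eq_zero.mp h2⟩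
  have hs0 : s ≠ 0 := by
    rintro rfl; apply hs; rw [map_zero]; exact m.zero_mem
  have hsA : algebraMap S A s ≠ 0 := by
    intro h0; exact hs0 (hinj (by rw [h0, map_zero]))
  rw [pow_dvd_iff_le_vl hπ ((isHom_algebraMap (G := G) s).mul (hc i)) (mul_ne_zero hsA hci),
    vl_mul hπ (isHom_algebraMap (G := G) s) (hc i) hsA hci, vl_algebraMap hπ hs0] at h3
  have h4 : multiplicity π s = 0 := by
    rw [multiplicity_eq_zero]
    rintro ⟨u, rfl⟩
    apply hs
    rw [map_mul]
    exact Ideal.mul_mem_right _ _ hπm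
  rw [h4] at h3
  simpa using h3

end S

end Vale.Agent.H23
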