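import Mathlib
import Vale.Agent.H23.DerivHom

/-!
The frame of the quotient: `D_i = h_i θ_i` and the `θ_i` form a frame of the invariants.
-/

set_option linter.unusedSectionVars false

namespace Vale.Agent.H23

/-- Coordinates on `S`: elements `x i` and dual derivations spanning all derivations. -/
structure Coord (S ι : Type*) [CommRing S] [Algebra ℂ S] [Fintype ι] [DecidableEq ι] where
  x : ι → S
  d : ι → Derivation ℂ S S
  dual : ∀ i j, d i (x j) = if i = j then 1 else 0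
  span : ∀ (θ : Derivation ℂ S S) (s : S), θ s = ∑ j, θ (x j) * d j s

/-- The data attached to a homogeneous local frame. -/
structure FrameData (G S A ι : Type*) [CommGroup G] [Fintype G]
    [CommRing S] [IsDomain S] [Algebra ℂ S] [CommRing A] [IsDomain A] [Algebra ℂ A]
    [Algebra S A] [MulSemiringAction G A] [Fintype ι] (m : Ideal A) where
  /-- generators -/
  h : (G →* ℂˣ) → A
  hh : ∀ χ, IsHom χ (h χ)
  hgen : ∀ χ (a : A), IsHom χ a → ∃ s : S, a = algebraMap S A s * h χ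
  /-- the frame -/
  D : ι → Derivation ℂ A A
  χ : ι → (G →* ℂˣ)
  hD : ∀ i, IsHomD (χ i) (D i)
  frame : LocalFrame m D
  h0 : ∀ i, h (χ i) ≠ 0
  h0' : ∀ i, h (χ i)⁻¹ ≠ 0
  θ : ι → Derivation ℂ S S
  hθ : ∀ i s, D i (algebraMap S A s) = algebraMap S A (θ i s) * h (χ i)
  p : ι → S
  hp : ∀ i, algebraMap S A (p i) = h (χ i) * h (χ i)⁻¹

section

variable {G S A ι : Type*} [CommGroup G] [Fintype G] [Fintype ι] [DecidableEq ι]
  [CommRing S] [IsDomain S] [UniqueFactorizationMonoid S] [Algebra ℂ S]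
  [CommRing A] [IsDomain A] [IsIntegrallyClosed A] [Algebra ℂ A]
  [Algebra S A] [IsScalarTower ℂ S A] [FaithfulSMul S A]
  [MulSemiringAction G A] [SMulCommClass G ℂ A] [SMulCommClass G S A]
  [Algebra.IsInvariant S A G]
  {m : Ideal A} [m.IsPrime] {π : S}

lemma algebraMap_ne_zero' {s : S} (hs : s ≠ 0) : algebraMap S A s ≠ 0 := by
  intro h0
  exact hs (FaithfulSMul.algebraMap_injective S A (by rw [h0, map_zero]))

lemma IsHom.amul {χ : G →* ℂˣ} {a : A} (s : S) (ha : IsHom χ a) :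
    IsHom χ (algebraMap S A s * a) := by
  have := (isHom_algebraMap (G := G) (A := A) s).mul ha
  rwa [chi_one_mul] at this

lemma vl_amul (hπ : Prime π) {s : S} (hs : s ≠ 0) {χ : G →* ℂˣ} {a : A} (ha : IsHom χ a)
    (ha0 : a ≠ 0) :
    vl G π (algebraMap S A s * a) = Fintype.card G * multiplicity π s + vl G π a := by
  rw [vl_mul hπ (isHom_algebraMap (G := G) s) ha (algebraMap_ne_zero' hs) ha0,
    vl_algebraMap hπ hs]

namespace FrameData

variable (Φ : FrameData G S A ι m)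

include Φ in
lemma p_ne_zero (i : ι) : Φ.p i ≠ 0 := by
  intro h0
  have := Φ.hp i
  rw [h0, map_zero] at this
  exact mul_ne_zero (Φ.h0 i) (Φ.h0' i) this.symm

lemma vl_p (hπ : Prime π) (i : ι) :
    Fintype.card G * multiplicity π (Φ.p i) =
      vl G π (Φ.h (Φ.χ i)) + vl G π (Φ.h (Φ.χ i)⁻¹) := by
  rw [← vl_algebraMap hπ (Φ.p_ne_zero i) (A := A) (G := G), Φ.hp i,
    vl_mul hπ (Φ.hh _) (Φ.hh _) (Φ.h0 i) (Φ.h0' i)]

lemma h_one_ne_zero : Φ.h 1 ≠ 0 := by
  obtain ⟨s, hs⟩ := Φ.hgen 1 1 (by intro g; simp)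
  intro h0
  rw [h0, mul_zero] at hs
  exact one_ne_zero hs

lemma vl_lt (hπ : Prime π) (χ : G →* ℂˣ) (h0 : Φ.h χ ≠ 0) :
    vl G π (Φ.h χ) < Fintype.card G := by
  by_contra hcon
  push Not at hcon
  have h1 : algebraMap S A π ^ 1 ∣ Φ.h χ := by
    rw [pow_dvd_iff_le_vl hπ (Φ.hh χ) h0]; simpa using hcon
  rw [pow_one] at h1
  obtain ⟨b, hb⟩ := h1
  have hb' : IsHom χ b := by
    have h2 : IsHom χ (algebraMap S A π * b) := by rw [← hb]; exact Φ.hh χ
    have h3 := h2.of_mul (isHom_algebraMap π) (algebraMap_ne_zero' hπ.ne_zero)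
    rwa [chi_mul_inv_one] at h3
  obtain ⟨s, hs⟩ := Φ.hgen χ b hb'
  have h4 : algebraMap S A (π * s) = 1 := by
    apply mul_right_cancel₀ h0
    rw [one_mul, map_mul, mul_assoc, ← hs, ← hb]
  have h5 : π ∣ 1 := by
    refine ⟨s, ?_⟩
    apply FaithfulSMul.algebraMap_injective S A
    rw [h4, map_one]
  exact hπ.not_isUnit (isUnit_of_dvd_one h5)

/-- a generator with maximal valuation absorbs all ramified homogeneous elements -/
lemma exists_max (hπ : Prime π) : ∃ χ₀ : G →* ℂˣ, Φ.h χ₀ ≠ 0 ∧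
    ∀ (ψ : G →* ℂˣ) (a : A), IsHom ψ a → a ≠ 0 → π ∣ nm G S a →
      algebraMap S A π ∣ Φ.h χ₀ * a := by
  classical
  obtain ⟨χ₀, hχ₀, hmax⟩ := Finset.exists_max_image
    (Finset.univ.filter (fun χ : G →* ℂˣ => Φ.h χ ≠ 0)) (fun χ => vl G π (Φ.h χ))
    ⟨1, by simpa using Φ.h_one_ne_zero⟩
  simp only [Finset.mem_filter, Finset.mem_univ, true_and] at hχ₀ hmax
  refine ⟨χ₀, hχ₀, fun ψ a ha ha0 hd => ?_⟩
  obtain ⟨s, hs⟩ := Φ.hgen ψ a ha
  by_cases hπs : π ∣ s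
  · have : algebraMap S A π ∣ algebraMap S A s := map_dvd _ hπs
    rw [hs]
    exact Dvd.dvd.mul_left (Dvd.dvd.mul_right this _) _
  · have hψ0 : Φ.h ψ ≠ 0 := by
      intro h0; rw [h0, mul_zero] at hs; exact ha0 hs
    have hs0 : s ≠ 0 := by
      rintro rfl; rw [map_zero, zero_mul] at hs; exact ha0 hs
    have hd' : π ∣ nm G S (Φ.h ψ) := by
      rw [hs, nm_mul (isHom_algebraMap (G := G) s) (Φ.hh ψ), nm_algebraMap] at hd
      rcases hπ.dvd_or_dvd hd with h | h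
      · exact absurd (hπ.dvd_of_dvd_pow h) hπs
      · exact h
    obtain ⟨s', hs'⟩ := Φ.hgen _ _ ((Φ.hh χ₀).mul (Φ.hh ψ))
    have hne : Φ.h χ₀ * Φ.h ψ ≠ 0 := mul_ne_zero hχ₀ hψ0
    have hne' : Φ.h (χ₀ * ψ) ≠ 0 := by
      intro h0; rw [h0, mul_zero] at hs'; exact hne hs'
    have hs'0 : s' ≠ 0 := by
      rintro rfl; rw [map_zero, zero_mul] at hs'; exact hne hs'
    by_cases hπs' : π ∣ s'
    · have h1 : algebraMap S A π ∣ algebraMap S A s' := map_dvd _ hπs'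
      have h2 : algebraMap S A π ∣ Φ.h χ₀ * Φ.h ψ := by
        rw [hs']; exact Dvd.dvd.mul_right h1 _
      rw [hs]
      calc algebraMap S A π ∣ algebraMap S A s * (Φ.h χ₀ * Φ.h ψ) := Dvd.dvd.mul_left h2 _
        _ = Φ.h χ₀ * (algebraMap S A s * Φ.h ψ) := by ring
    · exfalso
      have h1 : vl G π (Φ.h χ₀ * Φ.h ψ) = vl G π (Φ.h χ₀) + vl G π (Φ.h ψ) :=
        vl_mul hπ (Φ.hh _) (Φ.hh _) hχ₀ hψ0
      rw [hs', vl_amul hπ hs'0 (Φ.hh _) hne', multiplicity_eq_zero.mpr hπs'] at h1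
      have h2 := hmax _ hne'
      have h3 : 0 < vl G π (Φ.h ψ) := multiplicity_pos_of_dvd hd'
      omega

/-- the auxiliary derivation `∑ (h a_i h_i' ∏_{k ≠ i} p_k) D_i` -/
noncomputable def aux (χ₀ : G →* ℂˣ) (a : ι → S) : ι → A := fun i =>
  algebraMap S A (a i * ∏ k ∈ Finset.univ.erase i, Φ.p k) * (Φ.h χ₀ * Φ.h (Φ.χ i)⁻¹)

lemma aux_apply (χ₀ : G →* ℂˣ) (a : ι → S) (s : S) :
    (∑ i, Φ.aux χ₀ a i • Φ.D i) (algebraMap S A s) =
      (Φ.h χ₀ * algebraMap S A (∏ k, Φ.p k)) * algebraMap S A (∑ i, a i * Φ.θ i s) := by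
  rw [deriv_sum_apply, map_sum, Finset.mul_sum]
  refine Finset.sum_congr rfl (fun i _ => ?_)
  rw [Φ.hθ, aux, ← Finset.mul_prod_erase Finset.univ Φ.p (Finset.mem_univ i)]
  simp only [map_mul]
  rw [Φ.hp i]
  ring

lemma aux_hom (χ₀ : G →* ℂˣ) (a : ι → S) (i : ι) :
    IsHom (χ₀ * (Φ.χ i)⁻¹) (Φ.aux χ₀ a i) :=
  ((Φ.hh χ₀).mul (Φ.hh (Φ.χ i)⁻¹)).amul _

lemma prod_erase_ne_zero (i : ι) : ∏ k ∈ Finset.univ.erase i, Φ.p k ≠ 0 :=
  Finset.prod_ne_zero_iff.mpr (fun k _ => Φ.p_ne_zero k)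

lemma aux_ne_zero {χ₀ : G →* ℂˣ} (hχ₀ : Φ.h χ₀ ≠ 0) {a : ι → S} {i : ι} (hai : a i ≠ 0) :
    Φ.aux χ₀ a i ≠ 0 :=
  mul_ne_zero (algebraMap_ne_zero' (mul_ne_zero hai (Φ.prod_erase_ne_zero i)))
    (mul_ne_zero hχ₀ (Φ.h0' i))

/-- if `∑ a_i θ_i ∈ π Der(S)` then `π ∣ a_i` -/
theorem dvd_of_comb (hπ : Prime π) (hπm : algebraMap S A π ∈ m) (a : ι → S)
    (θ' : Derivation ℂ S S) (hθ' : ∀ s, ∑ i, a i * Φ.θ i s = π * θ' s) (i : ι) : π ∣ a i := by
  by_cases hai : a i = 0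
  · rw [hai]; exact dvd_zero _
  obtain ⟨χ₀, hχ₀, hmax⟩ := Φ.exists_max hπ
  set P : S := ∏ k, Φ.p k with hP
  have hP0 : P ≠ 0 := Finset.prod_ne_zero_iff.mpr (fun k _ => Φ.p_ne_zero k)
  set r := multiplicity π P + 1 with hr
  have hFhom : IsHomD χ₀ (∑ i, Φ.aux χ₀ a i • Φ.D i) := by
    apply IsHomD.sum
    intro i _
    have h1 := (Φ.hD i).smul (Φ.aux_hom χ₀ a i)
    rwa [chi_mul_assoc, chi_inv_mul, chi_mul_one] at h1
  have hPdvd : π ^ r ∣ P * π := by
    rw [hr, pow_succ]; exact mul_dvd_mul_right (pow_multiplicity_dvd _ _) _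
  have hdvd := integrality hπ (∑ i, Φ.aux χ₀ a i • Φ.D i) hFhom
    (Φ.h χ₀ * algebraMap S A (P * π)) θ' (by
      intro s
      rw [Φ.aux_apply, hθ' s, ← hP]
      simp only [map_mul]; ring) r (by
      rw [← map_pow]
      exact Dvd.dvd.mul_left (map_dvd _ hPdvd) _) (Or.inr (by
      intro ψ b hb hb0 hd
      obtain ⟨c, hc⟩ := hmax ψ b hb hb0 hd
      obtain ⟨e, he⟩ := hPdvd
      refine ⟨c * algebraMap S A e, ?_⟩
      rw [he, map_mul, map_pow]
      calc Φ.h χ₀ * (algebraMap S A π ^ r * algebraMap S A e) * b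
          = (Φ.h χ₀ * b) * (algebraMap S A π ^ r * algebraMap S A e) := by ring
        _ = _ := by rw [hc]; ring))
  have hc := coeff_vl (S := S) Φ.hD Φ.frame hπ hπm (φ := χ₀) (Φ.aux χ₀ a)
    (fun i => χ₀ * (Φ.χ i)⁻¹) (Φ.aux_hom χ₀ a)
    (fun i => by rw [chi_mul_assoc, chi_inv_mul, chi_mul_one]) r hdvd i (Φ.aux_ne_zero hχ₀ hai)
  have hv1 : vl G π (Φ.aux χ₀ a i) = Fintype.card G * (multiplicity π (a i) +
      multiplicity π (∏ k ∈ Finset.univ.erase i, Φ.p k)) +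
      (vl G π (Φ.h χ₀) + vl G π (Φ.h (Φ.χ i)⁻¹)) := by
    rw [aux, vl_amul hπ (mul_ne_zero hai (Φ.prod_erase_ne_zero i))
      ((Φ.hh χ₀).mul (Φ.hh _)) (mul_ne_zero hχ₀ (Φ.h0' i)),
      vl_mul hπ (Φ.hh _) (Φ.hh _) hχ₀ (Φ.h0' i), multiplicity_mul hπ
      (FiniteMultiplicity.of_prime_left hπ (mul_ne_zero hai (Φ.prod_erase_ne_zero i)))]
  have hv2 : multiplicity π P = multiplicity π (Φ.p i) +
      multiplicity π (∏ k ∈ Finset.univ.erase i, Φ.p k) := by
    rw [hP, ← Finset.mul_prod_erase Finset.univ Φ.p (Finset.mem_univ i)]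
    exact multiplicity_mul hπ (FiniteMultiplicity.of_prime_left hπ
      (mul_ne_zero (Φ.p_ne_zero i) (Φ.prod_erase_ne_zero i)))
  have hv3 := Φ.vl_p hπ i
  have hv4 := Φ.vl_lt hπ χ₀ hχ₀
  rw [hv1, hr, hv2] at hc
  have hpos : 0 < multiplicity π (a i) := by
    by_contra h0
    have h00 : multiplicity π (a i) = 0 := by omega
    rw [h00] at hc
    nlinarith [hc, hv3, hv4, Nat.zero_le (vl G π (Φ.h (Φ.χ i)))]
  exact dvd_of_multiplicity_pos hpos

/-- the Jacobian determinant of the `θ_i` -/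
noncomputable def Δ (C : Coord S ι) : S := (Matrix.of fun i j => Φ.θ i (C.x j)).det

theorem Δ_ne_zero (C : Coord S ι) : Φ.Δ C ≠ 0 := by
  intro hdet
  obtain ⟨a, ha0, ha⟩ := Matrix.exists_vecMul_eq_zero_iff.mpr hdet
  apply ha0
  have h1 : ∀ s, ∑ i, a i * Φ.θ i s = 0 := by
    intro s
    have h2 : ∀ i, Φ.θ i s = ∑ j, Φ.θ i (C.x j) * C.d j s := fun i => C.span _ _
    calc ∑ i, a i * Φ.θ i s = ∑ i, ∑ j, a i * Φ.θ i (C.x j) * C.d j s := by
          refine Finset.sum_congr rfl (fun i _ => ?_)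
          rw [h2 i, Finset.mul_sum]
          exact Finset.sum_congr rfl (fun j _ => by ring)
      _ = ∑ j, (∑ i, a i * Φ.θ i (C.x j)) * C.d j s := by
          rw [Finset.sum_comm]
          exact Finset.sum_congr rfl (fun j _ => by rw [Finset.sum_mul])
      _ = 0 := by
          apply Finset.sum_eq_zero
          intro j _
          have h3 := congrFun ha j
          simp only [Matrix.vecMul, dotProduct, Matrix.of_apply, Pi.zero_apply] at h3
          rw [h3, zero_mul]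
  have h4 : ∑ i, Φ.aux 1 a i • Φ.D i = 0 := by
    ext b
    have hom : ∀ (ψ : G →* ℂˣ) (b : A), IsHom ψ b → (∑ i, Φ.aux 1 a i • Φ.D i) b = 0 := by
      intro ψ b hb
      by_cases hb0 : b = 0
      · rw [hb0, map_zero]
      have key := card_mul_nm_mul (S := S) (∑ i, Φ.aux 1 a i • Φ.D i) hb
      rw [Φ.aux_apply, h1, map_zero, mul_zero, mul_zero] at key
      have hN : IsUnit (Fintype.card G : A) := card_isUnit (G := G)
      rcases mul_eq_zero.mp key with h | h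
      · exact absurd h hN.ne_zero
      · rcases mul_eq_zero.mp h with h | h
        · exact absurd h (algebraMap_ne_zero' (nm_ne_zero hb hb0))
        · exact h
    rw [← sum_proj (rhoA G A) b, map_sum]
    simp only [Derivation.coe_zero, Pi.zero_apply]
    exact Finset.sum_eq_zero (fun χ _ => hom χ _ (isHom_proj χ b))
  have h5 := Φ.frame.indep _ h4
  ext i
  by_contra hai
  exact Φ.aux_ne_zero Φ.h_one_ne_zero hai (h5 i)

/-- no prime element of `m ∩ S` divides the Jacobian -/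
theorem not_dvd_Δ (C : Coord S ι) (hπ : Prime π) (hπm : algebraMap S A π ∈ m) :
    ¬ π ∣ Φ.Δ C := by
  intro hdvd
  let I : Ideal S := Ideal.span {π}
  have hI : I.IsPrime := (Ideal.span_singleton_prime hπ.ne_zero).mpr hπ
  have hmk : ∀ s : S, Ideal.Quotient.mk I s = 0 ↔ π ∣ s := by
    intro s
    rw [Ideal.Quotient.eq_zero_iff_mem, Ideal.mem_span_singleton]
  let M : Matrix ι ι S := Matrix.of fun i j => Φ.θ i (C.x j)
  have hdet : (M.map (Ideal.Quotient.mk I)).det = 0 := by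
    have := RingHom.map_det (Ideal.Quotient.mk I) M
    rw [RingHom.mapMatrix_apply] at this
    rw [← this, hmk]; exact hdvd
  obtain ⟨v, hv0, hv⟩ := Matrix.exists_vecMul_eq_zero_iff.mpr hdet
  choose a ha using fun i => Ideal.Quotient.mk_surjective (v i)
  have h1 : ∀ j, ∃ c, ∑ i, a i * Φ.θ i (C.x j) = π * c := by
    intro j
    have h3 := congrFun hv j
    simp only [Matrix.vecMul, dotProduct, Matrix.map_apply, Pi.zero_apply] at h3
    have h4 : Ideal.Quotient.mk I (∑ i, a i * Φ.θ i (C.x j)) = 0 := by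
      rw [map_sum, ← h3]
      refine Finset.sum_congr rfl (fun i _ => ?_)
      rw [map_mul, ha i]; rfl
    exact (hmk _).mp h4
  choose c hc using h1
  have hall := Φ.dvd_of_comb hπ hπm a (∑ j, c j • C.d j) (by
    intro s
    rw [deriv_sum_apply, Finset.mul_sum]
    have h2 : ∀ i, Φ.θ i s = ∑ j, Φ.θ i (C.x j) * C.d j s := fun i => C.span _ _
    calc ∑ i, a i * Φ.θ i s = ∑ i, ∑ j, a i * Φ.θ i (C.x j) * C.d j s := by
          refine Finset.sum_congr rfl (fun i _ => ?_)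
          rw [h2 i, Finset.mul_sum]
          exact Finset.sum_congr rfl (fun j _ => by ring)
      _ = ∑ j, (∑ i, a i * Φ.θ i (C.x j)) * C.d j s := by
          rw [Finset.sum_comm]
          exact Finset.sum_congr rfl (fun j _ => by rw [Finset.sum_mul])
      _ = _ := by
          refine Finset.sum_congr rfl (fun j _ => ?_)
          rw [hc j]; ring)
  apply hv0
  ext i
  rw [← ha i]
  exact (hmk _).mpr (hall i)

theorem Δ_not_mem (C : Coord S ι) : algebraMap S A (Φ.Δ C) ∉ m := by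
  intro hmem
  have hn : Φ.Δ C ∈ m.comap (algebraMap S A) := hmem
  obtain ⟨π, hπ, hdvd, hπm⟩ : ∃ π : S, Prime π ∧ π ∣ Φ.Δ C ∧ algebraMap S A π ∈ m := by
    have hprime : (m.comap (algebraMap S A)).IsPrime := inferInstance
    obtain ⟨f, hf, u, hfu⟩ := UniqueFactorizationMonoid.exists_prime_factors _ (Φ.Δ_ne_zero C)
    have h1 : f.prod ∈ m.comap (algebraMap S A) := by
      have : f.prod = Φ.Δ C * ((u⁻¹ : Sˣ) : S) := by
        rw [← hfu, mul_assoc]; simp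
      rw [this]
      exact Ideal.mul_mem_right _ _ hn
    obtain ⟨π, hπf, hπn⟩ := (Ideal.IsPrime.multiset_prod_mem_iff_exists_mem hprime f).mp h1
    exact ⟨π, hf π hπf, (Multiset.dvd_prod hπf).trans (by rw [← hfu]; exact dvd_mul_right _ _), hπn⟩
  exact Φ.not_dvd_Δ C hπ hπm hdvd

end FrameData

end

end Vale.Agent.H23
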