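import Mathlib
import Vale.Agent.H23.Frame
import Vale.Agent.H23.EtaleDer
import Vale.Agent.H23.DimBound

/-!
Structure of the branch divisor.
-/

set_option linter.unusedSectionVars false

namespace Vale.Agent.H23

section

variable {G S A ι : Type*} [CommGroup G] [Fintype G] [Fintype ι] [DecidableEq ι]
  [CommRing S] [IsDomain S] [UniqueFactorizationMonoid S] [Algebra ℂ S]
  [CommRing A] [IsDomain A] [IsIntegrallyClosed A] [Algebra ℂ A]
  [Algebra S A] [IsScalarTower ℂ S A] [FaithfulSMul S A]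
  [MulSemiringAction G A] [SMulCommClass G ℂ A] [SMulCommClass G S A]
  [Algebra.IsInvariant S A G]
  {m : Ideal A} [m.IsPrime] {π : S}

namespace FrameData

variable (Φ : FrameData G S A ι m)

/-- matrix of the `θ_i` -/
noncomputable def M (C : Coord S ι) : Matrix ι ι S := Matrix.of fun i j => Φ.θ i (C.x j)

lemma Δ_mul_d (C : Coord S ι) (j : ι) (s : S) :
    Φ.Δ C * C.d j s = ∑ l, (Φ.M C).adjugate j l * Φ.θ l s := by
  have h1 : (fun l => Φ.θ l s) = (Φ.M C).mulVec (fun j => C.d j s) := by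
    ext l
    simp only [Matrix.mulVec, dotProduct, M, Matrix.of_apply]
    exact C.span _ _
  have h2 : (Φ.M C).adjugate.mulVec (fun l => Φ.θ l s) = (Φ.M C).det • (fun j => C.d j s) := by
    rw [h1, Matrix.mulVec_mulVec, Matrix.adjugate_mul, Matrix.smul_mulVec, Matrix.one_mulVec]
  have h3 := congrFun h2 j
  simp only [Matrix.mulVec, dotProduct, Pi.smul_apply, smul_eq_mul] at h3
  rw [h3]; rfl

theorem exists_not_dvd (C : Coord S ι) (hNS : ∀ π : S, Prime π → ∃ j, ¬ π ∣ C.d j π)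
    (hπ : Prime π) (hπm : algebraMap S A π ∈ m) : ∃ l, ¬ π ∣ Φ.θ l π := by
  by_contra hcon
  push Not at hcon
  obtain ⟨j, hj⟩ := hNS π hπ
  have h1 : π ∣ Φ.Δ C * C.d j π := by
    rw [Φ.Δ_mul_d]
    exact Finset.dvd_sum (fun l _ => Dvd.dvd.mul_left (hcon l) _)
  rcases hπ.dvd_or_dvd h1 with h | h
  · exact Φ.not_dvd_Δ C hπ hπm h
  · exact hj h

lemma natCast_ne_zero' {q : ℕ} : ((q : S) + 1) ≠ 0 := by
  have h : ((q : S) + 1) = algebraMap ℂ S ((q : ℂ) + 1) := by simp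
  rw [h]
  intro h0
  have : ((q : ℂ) + 1) = 0 := by
    apply FaithfulSMul.algebraMap_injective ℂ S
    rw [h0, map_zero]
  exact Nat.cast_add_one_ne_zero q this

lemma natCast_isUnit' {q : ℕ} : IsUnit ((q : S) + 1) := by
  have h : ((q : S) + 1) = algebraMap ℂ S ((q : ℂ) + 1) := by simp
  rw [h]
  apply IsUnit.map
  rw [isUnit_iff_ne_zero]
  exact Nat.cast_add_one_ne_zero q

/-- ramified elements and fields transversal to the branch divisor -/
theorem star (hπ : Prime π) {k : ι} (hk : ¬ π ∣ Φ.θ k π) {ψ : G →* ℂˣ} {a : A}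
    (ha : IsHom ψ a) (ha0 : a ≠ 0) (hd : π ∣ nm G S a) :
    Fintype.card G ≤ vl G π a + vl G π (Φ.h (Φ.χ k)) := by
  have hn0 := nm_ne_zero (S := S) ha ha0
  obtain ⟨q, t', ht', hq⟩ := WfDvdMonoid.max_power_factor' hn0 hπ.not_isUnit
  obtain ⟨q, rfl⟩ : ∃ q', q = q' + 1 := by
    rcases q with _ | q
    · rw [pow_zero, one_mul] at hq
      rw [hq] at hd; exact absurd hd ht'
    · exact ⟨q, rfl⟩
  set w : S := ((q : S) + 1) * t' * Φ.θ k π + π * Φ.θ k t' with hw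
  have hw' : ¬ π ∣ w := by
    intro h
    have h1 : π ∣ ((q : S) + 1) * t' * Φ.θ k π := by
      have := dvd_sub h (dvd_mul_right π (Φ.θ k t'))
      rwa [hw, add_sub_cancel_right] at this
    rcases hπ.dvd_or_dvd h1 with h2 | h2
    · rcases hπ.dvd_or_dvd h2 with h3 | h3
      · exact hπ.not_isUnit (isUnit_of_dvd_unit h3 natCast_isUnit')
      · exact ht' h3
    · exact hk h2
  have hw0 : w ≠ 0 := by
    rintro h; rw [h] at hw'; exact hw' (dvd_zero _)
  have key := card_mul_nm_mul (S := S) (Φ.D k) ha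
  rw [Φ.hθ, hq, deriv_pow_succ_mul, ← hw] at key
  simp only [map_mul, map_pow] at key
  have hπA : algebraMap S A π ≠ 0 := algebraMap_ne_zero' hπ.ne_zero
  have h2 : algebraMap S A w * (a * Φ.h (Φ.χ k)) =
      algebraMap S A π * ((Fintype.card G : A) * (algebraMap S A t' * Φ.D k a)) := by
    apply mul_left_cancel₀ (pow_ne_zero q hπA)
    linear_combination -key
  have h3 : algebraMap S A π ^ 1 ∣ algebraMap S A w * (a * Φ.h (Φ.χ k)) := by
    rw [h2, pow_one]; exact Dvd.intro _ rfl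
  have hne : a * Φ.h (Φ.χ k) ≠ 0 := mul_ne_zero ha0 (Φ.h0 k)
  rw [pow_dvd_iff_le_vl hπ ((ha.mul (Φ.hh _)).amul w) (mul_ne_zero (algebraMap_ne_zero' hw0) hne),
    vl_amul hπ hw0 (ha.mul (Φ.hh _)) hne, vl_mul hπ ha (Φ.hh _) ha0 (Φ.h0 k),
    multiplicity_eq_zero.mpr hw'] at h3
  simpa using h3

/-- if `θ_l π` is not divisible by `π`, all other `h_k` are unramified at `π` -/
theorem vl_eq_zero (hπ : Prime π) (hπm : algebraMap S A π ∈ m) {k l : ι} (hkl : k ≠ l)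
    (hl : ¬ π ∣ Φ.θ l π) : vl G π (Φ.h (Φ.χ k)) = 0 := by
  classical
  have hlπ : Φ.θ l π ≠ 0 := by
    intro h; rw [h] at hl; exact hl (dvd_zero _)
  let c : ι → A := fun i =>
    if i = k then algebraMap S A (Φ.θ l π * Φ.p l) * Φ.h (Φ.χ k)⁻¹
    else if i = l then algebraMap S A (-(Φ.θ k π * Φ.p k)) * Φ.h (Φ.χ l)⁻¹ else 0
  have hck : c k = algebraMap S A (Φ.θ l π * Φ.p l) * Φ.h (Φ.χ k)⁻¹ := by simp [c]
  have hcl : c l = algebraMap S A (-(Φ.θ k π * Φ.p k)) * Φ.h (Φ.χ l)⁻¹ := by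
    simp [c, Ne.symm hkl]
  have hsum : ∀ f : ι → A, ∑ i, c i * f i = c k * f k + c l * f l := by
    intro f
    rw [← Finset.sum_subset (Finset.subset_univ {k, l})]
    · rw [Finset.sum_pair hkl]
    · intro i _ hi
      simp only [Finset.mem_insert, Finset.mem_singleton, not_or] at hi
      simp [c, hi.1, hi.2]
  have hchom : ∀ i, IsHom ((Φ.χ i)⁻¹) (c i) := by
    intro i
    by_cases hik : i = k
    · subst hik
      rw [hck]; exact (Φ.hh _).amul _
    · by_cases hil : i = l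
      · subst hil
        rw [hcl]; exact (Φ.hh _).amul _
      · have : c i = 0 := by simp [c, hik, hil]
        rw [this]; exact IsHom.zero _
  have hF : IsHomD (1 : G →* ℂˣ) (∑ i, c i • Φ.D i) := by
    apply IsHomD.sum
    intro i _
    have := (Φ.hD i).smul (hchom i)
    rwa [chi_inv_mul] at this
  let θ' : Derivation ℂ S S := Φ.θ l π • Φ.θ k - Φ.θ k π • Φ.θ l
  have hθ' : ∀ s, θ' s = Φ.θ l π * Φ.θ k s - Φ.θ k π * Φ.θ l s := fun s => by
    simp [θ']
  set r := multiplicity π (Φ.p k * Φ.p l) with hr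
  have hdvd := integrality hπ (∑ i, c i • Φ.D i) hF (algebraMap S A (Φ.p k * Φ.p l)) θ' (by
    intro s
    rw [deriv_sum_apply, hsum, hck, hcl, Φ.hθ, Φ.hθ, hθ']
    simp only [map_mul, map_sub, map_neg]
    rw [Φ.hp k, Φ.hp l]
    ring) r (by rw [← map_pow]; exact map_dvd _ (pow_multiplicity_dvd _ _))
    (Or.inl (by rw [hθ']; simp [mul_comm]))
  have hck0 : c k ≠ 0 := by
    rw [hck]
    exact mul_ne_zero (algebraMap_ne_zero' (mul_ne_zero hlπ (Φ.p_ne_zero l))) (Φ.h0' k)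
  have hc := coeff_vl (S := S) Φ.hD Φ.frame hπ hπm (φ := 1) c (fun i => (Φ.χ i)⁻¹) hchom
    (fun i => chi_inv_mul _) r hdvd k hck0
  rw [hck, vl_amul hπ (mul_ne_zero hlπ (Φ.p_ne_zero l)) (Φ.hh _) (Φ.h0' k),
    multiplicity_mul hπ (FiniteMultiplicity.of_prime_left hπ (mul_ne_zero hlπ (Φ.p_ne_zero l))),
    multiplicity_eq_zero.mpr hl, hr,
    multiplicity_mul hπ (FiniteMultiplicity.of_prime_left hπ
      (mul_ne_zero (Φ.p_ne_zero k) (Φ.p_ne_zero l)))] at hc
  have hv := Φ.vl_p hπ k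
  nlinarith [hc, hv]

/-- a ramified prime is invariant under all `θ_k` but one -/
theorem dvd_of_ramified (hπ : Prime π) (hπm : algebraMap S A π ∈ m) {k l : ι} (hkl : k ≠ l)
    (hl : ¬ π ∣ Φ.θ l π) {ψ : G →* ℂˣ} (hψ0 : Φ.h ψ ≠ 0) (hψ : π ∣ nm G S (Φ.h ψ)) :
    π ∣ Φ.θ k π := by
  by_contra hk
  have h1 := Φ.vl_eq_zero hπ hπm hkl hl
  have h2 := Φ.star hπ hk (Φ.hh ψ) hψ0 hψ
  have h3 := Φ.vl_lt hπ ψ hψ0
  omega

/-- the valuations of `h_l` and `h_l'` add up to `N` when `h_l` is ramified -/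
theorem vl_add (hπ : Prime π) (i : ι) (h : 0 < vl G π (Φ.h (Φ.χ i)) ∨
    0 < vl G π (Φ.h (Φ.χ i)⁻¹)) :
    multiplicity π (Φ.p i) = 1 ∧
      vl G π (Φ.h (Φ.χ i)) + vl G π (Φ.h (Φ.χ i)⁻¹) = Fintype.card G := by
  have h1 := Φ.vl_p hπ i
  have h2 := Φ.vl_lt hπ _ (Φ.h0 i)
  have h3 := Φ.vl_lt hπ _ (Φ.h0' i)
  have h4 : multiplicity π (Φ.p i) = 1 := by
    have h5 : multiplicity π (Φ.p i) ≠ 0 := by
      intro h0
      rw [h0] at h1
      omega
    have h6 : multiplicity π (Φ.p i) < 2 := by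
      by_contra h7
      push Not at h7
      have h8 : Fintype.card G * 2 ≤ Fintype.card G * multiplicity π (Φ.p i) :=
        Nat.mul_le_mul_left _ h7
      omega
    omega
  refine ⟨h4, ?_⟩
  rw [← h1, h4, mul_one]

end FrameData

end

end Vale.Agent.H23
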