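import Mathlib
import Vale.Agent.H23.EtaleDer

/-!
Extending derivations to integral extensions up to a denominator.
-/

set_option linter.unusedSectionVars false

namespace Vale.Agent.H23

/-- restrict a derivation of the fraction field, multiplied by a common denominator -/
lemma exists_deriv_of_range {A K : Type*} [CommRing A] [Algebra ℂ A] [CommRing K] [Algebra ℂ K]
    [Algebra A K] [IsScalarTower ℂ A K] (hinj : Function.Injective (algebraMap A K))
    (θ : Derivation ℂ K K) (s : A)
    (h : ∀ a : A, ∃ b, algebraMap A K b = algebraMap A K s * θ (algebraMap A K a)) :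
    ∃ E : Derivation ℂ A A, ∀ a, algebraMap A K (E a) = algebraMap A K s * θ (algebraMap A K a) := by
  choose f hf using h
  have hsm : ∀ (r : ℂ) (a : A), algebraMap A K (r • a) = r • algebraMap A K a := by
    intro r a
    rw [Algebra.algebraMap_eq_smul_one, Algebra.algebraMap_eq_smul_one, smul_assoc]
  let L : A →ₗ[ℂ] A :=
    { toFun := f
      map_add' := fun a b => by
        apply hinj
        rw [hf, map_add, map_add, map_add, hf a, hf b]; ring
      map_smul' := fun r a => by
        apply hinj
        rw [hf, hsm, Derivation.map_smul, RingHom.id_apply, hsm, hf a, mul_smul_comm] }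
  refine ⟨Derivation.mk' L (fun a b => ?_), hf⟩
  apply hinj
  change algebraMap A K (f (a * b)) = algebraMap A K (a • f b + b • f a)
  rw [hf, map_mul, Derivation.leibniz]
  simp only [smul_eq_mul, map_add, map_mul, hf a, hf b]; ring

/-- extension of derivations along an algebraic extension of domains, up to a denominator. -/
theorem exists_extend {S A : Type*} [CommRing S] [IsDomain S] [Algebra ℂ S]
    [CommRing A] [IsDomain A] [Algebra ℂ A] [Algebra.FiniteType ℂ A]
    [Algebra S A] [IsScalarTower ℂ S A] [FaithfulSMul S A] [Algebra.IsIntegral S A]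
    (θ : Derivation ℂ S S) :
    ∃ (s : A) (E : Derivation ℂ A A), s ≠ 0 ∧
      ∀ x : S, E (algebraMap S A x) = s * algebraMap S A (θ x) := by
  classical
  let K := FractionRing A
  have hAK : Function.Injective (algebraMap A K) := IsFractionRing.injective A K
  have hfaith : FaithfulSMul S K := by
    rw [faithfulSMul_iff_algebraMap_injective, IsScalarTower.algebraMap_eq S A K]
    exact hAK.comp (FaithfulSMul.algebraMap_injective S A)
  let F := FractionRing S
  let _ : Algebra F K := FractionRing.liftAlgebra S K
  have : IsScalarTower S F K := FractionRing.isScalarTower_liftAlgebra S K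
  have halg : Algebra.IsAlgebraic S K :=
    (IsFractionRing.isAlgebraic_iff' S A K).mp inferInstance
  have halgF : Algebra.IsAlgebraic F K := (IsFractionRing.comap_isAlgebraic_iff (A := S)).mp halg
  have hchar : CharZero F :=
    charZero_of_injective_algebraMap (FaithfulSMul.algebraMap_injective ℂ F)
  have hsep : Algebra.IsSeparable F K := inferInstance
  have hFK : Algebra.FormallyEtale F K := Algebra.FormallyEtale.of_isSeparable F K
  have hSF : Algebra.FormallyEtale S F :=
    Algebra.FormallyEtale.of_isLocalization (Rₘ := F) (nonZeroDivisors S)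
  have hSK : Algebra.FormallyEtale S K := Algebra.FormallyEtale.comp S F K
  obtain ⟨θ', hθ'⟩ := exists_deriv_of_formallyEtale ℂ S K ((Algebra.linearMap S K).compDer θ)
  have hθ'' : ∀ x, θ' (algebraMap S K x) = algebraMap S K (θ x) := hθ'
  -- common denominator
  obtain ⟨t, ht⟩ := (Algebra.FiniteType.out : (⊤ : Subalgebra ℂ A).FG)
  obtain ⟨s, hs⟩ := IsLocalization.exist_integer_multiples_of_finset (nonZeroDivisors A)
    (t.image (fun a => θ' (algebraMap A K a)))
  have hs0 : (s : A) ≠ 0 := nonZeroDivisors.ne_zero s.2
  have hall : ∀ a : A, ∃ b, algebraMap A K b = algebraMap A K s * θ' (algebraMap A K a) := by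
    intro a
    have ha : a ∈ Algebra.adjoin ℂ (t : Set A) := by rw [ht]; trivial
    induction ha using Algebra.adjoin_induction with
    | mem x hx =>
      obtain ⟨b, hb⟩ := hs _ (Finset.mem_image_of_mem _ hx)
      exact ⟨b, by rw [hb, Algebra.smul_def]⟩
    | algebraMap r =>
      refine ⟨0, ?_⟩
      rw [← IsScalarTower.algebraMap_apply, Derivation.map_algebraMap]
      simp
    | add x y _ _ hx hy =>
      obtain ⟨b, hb⟩ := hx
      obtain ⟨c, hc⟩ := hy
      exact ⟨b + c, by rw [map_add, map_add, map_add, hb, hc]; ring⟩
    | mul x y _ _ hx hy =>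
      obtain ⟨b, hb⟩ := hx
      obtain ⟨c, hc⟩ := hy
      refine ⟨x * c + y * b, ?_⟩
      rw [map_add, map_mul, map_mul, hb, hc, map_mul, Derivation.leibniz]
      simp only [smul_eq_mul]; ring
  obtain ⟨E, hE⟩ := exists_deriv_of_range hAK θ' s hall
  refine ⟨s, E, hs0, fun x => ?_⟩
  apply hAK
  rw [hE, ← IsScalarTower.algebraMap_apply, hθ'', map_mul, ← IsScalarTower.algebraMap_apply]

end Vale.Agent.H23
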