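import Mathlib
import Vale.Agent.H23.Branch

/-!
No codimension two locus can be stable under all but one of the `θ_k`.
-/

set_option linter.unusedSectionVars false

namespace Vale.Agent.H23

section

variable {G S A ι : Type*} [CommGroup G] [Fintype G] [Fintype ι] [DecidableEq ι]
  [CommRing S] [IsDomain S] [UniqueFactorizationMonoid S] [Algebra ℂ S] [IsNoetherianRing S]
  [CommRing A] [IsDomain A] [IsIntegrallyClosed A] [Algebra ℂ A]
  [Algebra S A] [IsScalarTower ℂ S A] [FaithfulSMul S A]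
  [MulSemiringAction G A] [SMulCommClass G ℂ A] [SMulCommClass G S A]
  [Algebra.IsInvariant S A G]
  {m : Ideal A} [m.IsPrime] {π : S}

/-- evaluation on `S` -/
def evS (S : Type*) {A : Type*} [CommRing S] [Algebra ℂ S] [CommRing A] [Algebra ℂ A] [Algebra S A]
    [IsScalarTower ℂ S A] (evA : A →ₐ[ℂ] ℂ) : S →ₐ[ℂ] ℂ :=
  evA.comp (IsScalarTower.toAlgHom ℂ S A)

lemma evS_apply (evA : A →ₐ[ℂ] ℂ) (s : S) : evS S evA s = evA (algebraMap S A s) := rfl

namespace FrameData

variable (Φ : FrameData G S A ι m) (C : Coord S ι) (evA : A →ₐ[ℂ] ℂ)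

/-- matrix of the `θ_i` at the point -/
noncomputable def M0 : Matrix ι ι ℂ := (Φ.M C).map (evS S evA)

lemma isUnit_det_M0 (hev : ∀ a, a ∈ m ↔ evA a = 0) : IsUnit (Φ.M0 C evA).det := by
  rw [isUnit_iff_ne_zero]
  have h1 : (Φ.M0 C evA).det = evS S evA (Φ.Δ C) := by
    have := RingHom.map_det (evS S evA : S →+* ℂ) (Φ.M C)
    exact this.symm
  rw [h1, evS_apply]
  intro h
  exact Φ.Δ_not_mem C ((hev _).mpr h)

/-- linear coordinates adapted to the frame at the point -/
noncomputable def y (j : ι) : S :=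
  ∑ l, (Φ.M0 C evA)⁻¹ l j • (C.x l - algebraMap ℂ S (evS S evA (C.x l)))

lemma ev_y (j : ι) : evS S evA (Φ.y C evA j) = 0 := by
  unfold y
  rw [map_sum]
  apply Finset.sum_eq_zero
  intro l _
  rw [map_smul, map_sub, AlgHom.commutes]
  simp

lemma ev_θ_y (hev : ∀ a, a ∈ m ↔ evA a = 0) (k j : ι) :
    evS S evA (Φ.θ k (Φ.y C evA j)) = if k = j then 1 else 0 := by
  have hu := Φ.isUnit_det_M0 C evA hev
  unfold y
  rw [map_sum, map_sum]
  have h1 : ∀ l, evS S evA (Φ.θ k ((Φ.M0 C evA)⁻¹ l j •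
      (C.x l - algebraMap ℂ S (evS S evA (C.x l))))) = (Φ.M0 C evA) k l * (Φ.M0 C evA)⁻¹ l j := by
    intro l
    rw [Derivation.map_smul, map_sub, Derivation.map_algebraMap, sub_zero, map_smul]
    simp only [M0, M, Matrix.map_apply, Matrix.of_apply, smul_eq_mul]
    rw [mul_comm]
  rw [Finset.sum_congr rfl (fun l _ => h1 l), ← Matrix.mul_apply, Matrix.mul_nonsing_inv _ hu,
    Matrix.one_apply]

include C in
theorem lemmaZ (hev : ∀ a, a ∈ m ↔ evA a = 0)
    (hdim : ringKrullDim (Localization.AtPrime (m.comap (algebraMap S A))) ≤ Fintype.card ι)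
    (i : ι) (hπ : Prime π) (hπm : algebraMap S A π ∈ m) (hπk : ∀ k, k ≠ i → π ∣ Φ.θ k π)
    (b : S) (hbm : algebraMap S A b ∈ m) (hb : ¬ π ∣ b)
    (hbk : ∀ k, k ≠ i → ∃ s, algebraMap S A s ∉ m ∧ s * Φ.θ k b ∈ Ideal.span {π, b}) :
    False := by
  set n : Ideal S := m.comap (algebraMap S A) with hn
  let T := Localization.AtPrime n
  let f : S →+* T := algebraMap S T
  have hfinj : Function.Injective f :=
    IsLocalization.injective T (Ideal.primeCompl_le_nonZeroDivisors n)
  have hfunit : ∀ s : S, algebraMap S A s ∉ m → IsUnit (f s) := fun s hs =>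
    IsLocalization.map_units T (⟨s, hs⟩ : n.primeCompl)
  have hfmax : ∀ s : S, algebraMap S A s ∈ m → f s ∈ IsLocalRing.maximalIdeal T := fun s hs =>
    (IsLocalization.AtPrime.to_map_mem_maximal_iff T n s).mpr hs
  let J : Ideal T := Ideal.span {f π, f b}
  have hJ : J ≤ IsLocalRing.maximalIdeal T := by
    rw [Ideal.span_le]
    rintro x hx
    simp only [Set.mem_insert_iff, Set.mem_singleton_iff] at hx
    rcases hx with rfl | rfl
    · exact hfmax π hπm
    · exact hfmax b hbm
  have hJne : J ≠ ⊤ := fun h => (Ideal.IsPrime.ne_top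
    (inferInstance : (IsLocalRing.maximalIdeal T).IsPrime)) (top_le_iff.mp (h ▸ hJ))
  have : Nontrivial (T ⧸ J) := Ideal.Quotient.nontrivial_iff.mpr hJne
  have : IsLocalRing (T ⧸ J) :=
    IsLocalRing.of_surjective' (Ideal.Quotient.mk J) Ideal.Quotient.mk_surjective
  have : IsNoetherianRing T := IsLocalization.isNoetherianRing n.primeCompl T inferInstance
  -- dimension estimate
  have hdimT : ringKrullDim T ≤ Fintype.card ι := hdim
  let K : Ideal T := Ideal.span {f π}
  have hKJ : K ≤ J := Ideal.span_mono (by simp)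
  have hfπ : f π ≠ 0 := by
    intro h0; exact hπ.ne_zero (hfinj (by rw [h0, map_zero]))
  have hd1 : ringKrullDim (T ⧸ K) + 1 ≤ ringKrullDim T :=
    ringKrullDim_quotient_succ_le_of_nonZeroDivisor (mem_nonZeroDivisors_of_ne_zero hfπ)
  have hb' : Ideal.Quotient.mk K (f b) ∈ nonZeroDivisors (T ⧸ K) := by
    rw [mem_nonZeroDivisors_iff_left]
    intro c hc
    obtain ⟨c, rfl⟩ := Ideal.Quotient.mk_surjective c
    rw [← map_mul, Ideal.Quotient.eq_zero_iff_mem] at hc
    rw [Ideal.Quotient.eq_zero_iff_mem]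
    obtain ⟨⟨c1, c2⟩, hc12⟩ := IsLocalization.surj n.primeCompl c
    simp only at hc12
    obtain ⟨e, he⟩ := Ideal.mem_span_singleton'.mp hc
    obtain ⟨⟨e1, e2⟩, he12⟩ := IsLocalization.surj n.primeCompl e
    simp only at he12
    -- e * π = b * c
    have h1 : (c2 : S) * e1 * π = e2 * b * c1 := by
      apply hfinj
      simp only [map_mul]
      have e1' : f e1 = e * f (e2 : S) := he12.symm
      have c1' : f c1 = c * f (c2 : S) := hc12.symm
      rw [e1', c1']
      calc f (c2 : S) * (e * f (e2 : S)) * f π = f (c2 : S) * f (e2 : S) * (e * f π) := by ring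
        _ = f (c2 : S) * f (e2 : S) * (f b * c) := by rw [he]
        _ = _ := by ring
    have h2 : π ∣ c1 := by
      have h3 : π ∣ (e2 : S) * b * c1 := by rw [← h1]; exact Dvd.intro_left _ rfl
      rcases hπ.dvd_or_dvd h3 with h4 | h4
      · rcases hπ.dvd_or_dvd h4 with h5 | h5
        · exfalso
          apply e2.2
          obtain ⟨u, hu⟩ := h5
          change algebraMap S A (e2 : S) ∈ m
          rw [hu, map_mul]
          exact Ideal.mul_mem_right _ _ hπm
        · exact absurd h5 hb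
      · exact h4
    obtain ⟨c3, rfl⟩ := h2
    obtain ⟨u, hu⟩ := hfunit (c2 : S) c2.2
    have h4 : c = f π * (f c3 * ((u⁻¹ : Tˣ) : T)) := by
      have h5 : c * (u : T) = f π * f c3 := by rw [hu, hc12, map_mul]
      calc c = c * (u : T) * ((u⁻¹ : Tˣ) : T) := by rw [mul_assoc]; simp
        _ = _ := by rw [h5]; ring
    rw [h4]
    exact Ideal.mul_mem_right _ _ (Ideal.mem_span_singleton_self _)
  have hd2 : ringKrullDim (T ⧸ J) + 1 ≤ ringKrullDim (T ⧸ K) := by
    refine ringKrullDim_succ_le_of_surjective (Ideal.Quotient.factor hKJ)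
      (Ideal.Quotient.factor_surjective hKJ) hb' ?_
    rw [Ideal.Quotient.factor_mk, Ideal.Quotient.eq_zero_iff_mem]
    exact Ideal.subset_span (by simp)
  -- derivations
  have hD : ∀ k : {k // k ≠ i}, ∃ D' : Derivation ℂ T T, ∀ s, D' (f s) = f (Φ.θ k s) := fun k =>
    exists_deriv_localization n.primeCompl T (Φ.θ k)
  choose D' hD' using hD
  have hker : ∀ (k : {k // k ≠ i}), ∀ z, (Ideal.Quotient.mkₐ ℂ J) z = 0 →
      (Ideal.Quotient.mkₐ ℂ J) (D' k z) = 0 := by
    intro k z hz
    rw [Ideal.Quotient.mkₐ_eq_mk, Ideal.Quotient.eq_zero_iff_mem] at hz ⊢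
    obtain ⟨u, v, rfl⟩ := Ideal.mem_span_pair.mp hz
    rw [map_add, Derivation.leibniz, Derivation.leibniz, hD', hD']
    have hπJ : f π ∈ J := Ideal.subset_span (by simp)
    have hbJ : f b ∈ J := Ideal.subset_span (by simp)
    have h1 : f (Φ.θ k π) ∈ J := by
      obtain ⟨c, hc⟩ := hπk k k.2
      rw [hc, map_mul]
      exact Ideal.mul_mem_right _ _ hπJ
    have h2 : f (Φ.θ k b) ∈ J := by
      obtain ⟨s, hs, hs2⟩ := hbk k k.2
      obtain ⟨u', v', huv⟩ := Ideal.mem_span_pair.mp hs2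
      have h3 : f s * f (Φ.θ k b) ∈ J := by
        rw [← map_mul, ← huv, map_add, map_mul, map_mul]
        exact J.add_mem (J.mul_mem_left _ hπJ) (J.mul_mem_left _ hbJ)
      exact (Ideal.unit_mul_mem_iff_mem J (hfunit s hs)).mp h3
    simp only [smul_eq_mul]
    exact J.add_mem (J.add_mem (J.mul_mem_left _ h1) (J.mul_mem_right _ hπJ))
      (J.add_mem (J.mul_mem_left _ h2) (J.mul_mem_right _ hbJ))
  have hsurj : Function.Surjective (Ideal.Quotient.mkₐ ℂ J) := Ideal.Quotient.mkₐ_surjective ℂ J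
  let D'' : {k // k ≠ i} → Derivation ℂ (T ⧸ J) (T ⧸ J) := fun k =>
    Derivation.liftOfSurjective hsurj (hker k)
  have hD'' : ∀ k s, D'' k (Ideal.Quotient.mkₐ ℂ J (f s)) = Ideal.Quotient.mkₐ ℂ J (f (Φ.θ k s)) := by
    intro k s
    change (Derivation.liftOfSurjective hsurj (hker k)) (Ideal.Quotient.mkₐ ℂ J (f s)) = _
    rw [Derivation.liftOfSurjective_apply, hD']
  let x : {k // k ≠ i} → T ⧸ J := fun k => Ideal.Quotient.mkₐ ℂ J (f (Φ.y C evA k))
  have hyx : ∀ k : {k // k ≠ i}, x k ∈ IsLocalRing.maximalIdeal (T ⧸ J) := by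
    intro k
    rw [IsLocalRing.mem_maximalIdeal, mem_nonunits_iff]
    intro hu
    have : IsLocalHom (Ideal.Quotient.mk J) :=
      IsLocalHom.of_surjective _ Ideal.Quotient.mk_surjective
    have h1 := isUnit_of_map_unit (Ideal.Quotient.mk J) _ hu
    have h2 := hfmax (Φ.y C evA k) ((hev _).mpr (Φ.ev_y C evA k))
    exact (IsLocalRing.mem_maximalIdeal _).mp h2 h1
  have hdet : IsUnit (Matrix.of fun k j => D'' k (x j)).det := by
    let B : Matrix {k // k ≠ i} {k // k ≠ i} S := Matrix.of fun k j => Φ.θ k (Φ.y C evA j)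
    let g : S →+* T ⧸ J := (Ideal.Quotient.mk J).comp f
    have h1 : (Matrix.of fun k j => D'' k (x j)) = B.map g := by
      ext k j
      exact hD'' k _
    rw [h1]
    have h2 : (B.map g).det = g B.det := by
      rw [RingHom.map_det]; rfl
    rw [h2]
    apply IsUnit.map (Ideal.Quotient.mk J)
    apply hfunit
    intro hmem
    have h3 : evS S evA B.det = 0 := by rw [evS_apply]; exact (hev _).mp hmem
    have h4 : evS S evA B.det = 1 := by
      have h5 := RingHom.map_det (evS S evA : S →+* ℂ) B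
      have h6 : ((evS S evA : S →+* ℂ).mapMatrix B) = 1 := by
        ext k j
        simp only [RingHom.mapMatrix_apply, Matrix.map_apply, B, Matrix.of_apply]
        rw [Matrix.one_apply]
        have := Φ.ev_θ_y C evA hev k j
        rw [RingHom.coe_coe, this]
        simp only [Subtype.ext_iff]
      rw [h6, Matrix.det_one] at h5
      exact h5
    rw [h3] at h4
    exact zero_ne_one h4
  have hge := dim_ge_of_derivations (k := ℂ) (T ⧸ J) x D'' hyx hdet
  have hcard : Fintype.card {k // k ≠ i} + 1 = Fintype.card ι := by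
    have h1 : Fintype.card {k // k ≠ i} = Fintype.card ι - 1 := by
      rw [Fintype.card_subtype_compl, Fintype.card_subtype_eq]
    have h2 : 0 < Fintype.card ι := Fintype.card_pos_iff.mpr ⟨i⟩
    omega
  have hfinal : ((Fintype.card ι + 1 : ℕ) : WithBot ℕ∞) ≤ (Fintype.card ι : ℕ) := by
    calc ((Fintype.card ι + 1 : ℕ) : WithBot ℕ∞)
        = ((Fintype.card {k // k ≠ i} : ℕ) : WithBot ℕ∞) + 1 + 1 := by
          rw [← hcard]; push_cast; rfl
      _ ≤ ringKrullDim (T ⧸ J) + 1 + 1 := by gcongr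
      _ ≤ ringKrullDim (T ⧸ K) + 1 := by gcongr
      _ ≤ ringKrullDim T := hd1
      _ ≤ _ := hdimT
  have : Fintype.card ι + 1 ≤ Fintype.card ι := by exact_mod_cast hfinal
  omega

end FrameData

end

end Vale.Agent.H23
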