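import Mathlib
import Vale.Agent.H23.LemmaZ

/-!
Local equations of the branch divisor and values of the frame on the roots `h_i'`.
-/

set_option linter.unusedSectionVars false

namespace Vale.Agent.H23

section

variable {G S A ι : Type*} [CommGroup G] [Fintype G] [Fintype ι] [DecidableEq ι]
  [CommRing S] [IsDomain S] [UniqueFactorizationMonoid S] [Algebra ℂ S] [IsNoetherianRing S]
  [CommRing A] [IsDomain A] [IsIntegrallyClosed A] [Algebra ℂ A]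
  [Algebra S A] [IsScalarTower ℂ S A] [FaithfulSMul S A]
  [MulSemiringAction G A] [SMulCommClass G ℂ A] [SMulCommClass G S A]
  [Algebra.IsInvariant S A G]
  {m : Ideal A} [m.IsPrime] {π : S}

lemma exists_prime_factor_mem {s : S} (hs : s ≠ 0) (hm : algebraMap S A s ∈ m) :
    ∃ π : S, Prime π ∧ π ∣ s ∧ algebraMap S A π ∈ m := by
  have hn : s ∈ m.comap (algebraMap S A) := hm
  have hprime : (m.comap (algebraMap S A)).IsPrime := inferInstance
  obtain ⟨f, hf, u, hfu⟩ := UniqueFactorizationMonoid.exists_prime_factors _ hs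
  have h1 : f.prod ∈ m.comap (algebraMap S A) := by
    have : f.prod = s * ((u⁻¹ : Sˣ) : S) := by
      rw [← hfu, mul_assoc]; simp
    rw [this]
    exact Ideal.mul_mem_right _ _ hn
  obtain ⟨π, hπf, hπn⟩ := (Ideal.IsPrime.multiset_prod_mem_iff_exists_mem hprime f).mp h1
  exact ⟨π, hf π hπf, (Multiset.dvd_prod hπf).trans (by rw [← hfu]; exact dvd_mul_right _ _), hπn⟩

lemma mem_iff_nm_mem {χ : G →* ℂˣ} {a : A} (ha : IsHom χ a) :
    a ∈ m ↔ algebraMap S A (nm G S a) ∈ m := by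
  rw [algebraMap_nm ha]
  exact ⟨fun h => Ideal.pow_mem_of_mem _ h _ Fintype.card_pos,
    fun h => Ideal.IsPrime.mem_of_pow_mem inferInstance _ h⟩

namespace FrameData

variable (Φ : FrameData G S A ι m) (C : Coord S ι) (evA : A →ₐ[ℂ] ℂ)

/-- if `h_i'` is a unit at the point then so is `h_i` -/
theorem h_not_mem (i : ι) (hi : Φ.h (Φ.χ i)⁻¹ ∉ m) : Φ.h (Φ.χ i) ∉ m := by
  intro hmem
  rw [mem_iff_nm_mem (S := S) (Φ.hh _)] at hmem
  obtain ⟨π, hπ, hd, hπm⟩ := exists_prime_factor_mem (nm_ne_zero (Φ.hh _) (Φ.h0 i)) hmem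
  have h1 : 0 < vl G π (Φ.h (Φ.χ i)) := multiplicity_pos_of_dvd hd
  have h2 := (Φ.vl_add hπ i (Or.inl h1)).2
  have h3 := Φ.vl_lt hπ _ (Φ.h0 i)
  have h4 : 0 < vl G π (Φ.h (Φ.χ i)⁻¹) := by omega
  have h5 : π ∣ nm G S (Φ.h (Φ.χ i)⁻¹) := dvd_of_multiplicity_pos h4
  apply hi
  rw [mem_iff_nm_mem (S := S) (Φ.hh _)]
  obtain ⟨c, hc⟩ := h5
  rw [hc, map_mul]
  exact Ideal.mul_mem_right _ _ hπm

theorem ram (hNS : ∀ π : S, Prime π → ∃ j, ¬ π ∣ C.d j π) (i : ι) (hπ : Prime π)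
    (hπm : algebraMap S A π ∈ m) (hd : π ∣ nm G S (Φ.h (Φ.χ i)⁻¹)) :
    ¬ π ∣ Φ.θ i π ∧ ∀ k, k ≠ i → π ∣ Φ.θ k π := by
  obtain ⟨l, hl⟩ := Φ.exists_not_dvd C hNS hπ hπm
  have h1 : 0 < vl G π (Φ.h (Φ.χ i)⁻¹) := multiplicity_pos_of_dvd hd
  have h2 := (Φ.vl_add hπ i (Or.inr h1)).2
  have h3 := Φ.vl_lt hπ _ (Φ.h0' i)
  have hli : l = i := by
    by_contra hne
    have h4 := Φ.vl_eq_zero hπ hπm (Ne.symm hne) hl
    omega
  subst hli
  exact ⟨hl, fun k hk => Φ.dvd_of_ramified hπ hπm hk hl (Φ.h0' l) hd⟩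

structure LocalEq (i : ι) (π : S) : Prop where
  prime : Prime π
  mem : algebraMap S A π ∈ m
  dvd : ∀ k, k ≠ i → π ∣ Φ.θ k π
  notMem : algebraMap S A (Φ.θ i π) ∉ m
  nm_eq : ∃ (q : ℕ) (u : S), nm G S (Φ.h (Φ.χ i)⁻¹) = π ^ (q + 1) * u ∧ algebraMap S A u ∉ m
  p_eq : ∃ p', Φ.p i = π * p' ∧ algebraMap S A p' ∉ m

theorem exists_localEq (hNS : ∀ π : S, Prime π → ∃ j, ¬ π ∣ C.d j π)
    (hev : ∀ a, a ∈ m ↔ evA a = 0)
    (hdim : ringKrullDim (Localization.AtPrime (m.comap (algebraMap S A))) ≤ Fintype.card ι)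
    (i : ι) (hi : Φ.h (Φ.χ i)⁻¹ ∈ m) (hπ : Prime π) (hπm : algebraMap S A π ∈ m)
    (hd : π ∣ nm G S (Φ.h (Φ.χ i)⁻¹)) : Φ.LocalEq i π := by
  set t := nm G S (Φ.h (Φ.χ i)⁻¹) with ht
  have ht0 : t ≠ 0 := nm_ne_zero (Φ.hh _) (Φ.h0' i)
  obtain ⟨hπi, hπk⟩ := Φ.ram C hNS i hπ hπm hd
  -- claim A
  have hA : algebraMap S A (Φ.θ i π) ∉ m := by
    intro hmem
    refine Φ.lemmaZ C evA hev hdim i hπ hπm hπk (Φ.θ i π) hmem hπi ?_
    intro k hk
    refine ⟨Φ.Δ C, Φ.Δ_not_mem C, ?_⟩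
    set I : Ideal S := Ideal.span {π, Φ.θ i π} with hI
    have hπI : π ∈ I := Ideal.subset_span (by simp)
    have hθI : Φ.θ i π ∈ I := Ideal.subset_span (by simp)
    have hall : ∀ l, Φ.θ l π ∈ I := by
      intro l
      by_cases hl : l = i
      · rw [hl]; exact hθI
      · obtain ⟨c, hc⟩ := hπk l hl
        rw [hc]; exact I.mul_mem_right _ hπI
    have h1 : Φ.θ k (Φ.θ i π) = Φ.θ i (Φ.θ k π) + ⁅Φ.θ k, Φ.θ i⁆ π := by
      rw [Derivation.commutator_apply]; ring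
    rw [h1, mul_add]
    apply I.add_mem
    · apply I.mul_mem_left
      obtain ⟨c, hc⟩ := hπk k hk
      rw [hc, Derivation.leibniz]
      simp only [smul_eq_mul]
      exact I.add_mem (I.mul_mem_right _ hπI) (I.mul_mem_left _ hθI)
    · rw [C.span ⁅Φ.θ k, Φ.θ i⁆ π, Finset.mul_sum]
      apply I.sum_mem
      intro j _
      have h2 : Φ.Δ C * (⁅Φ.θ k, Φ.θ i⁆ (C.x j) * C.d j π) =
          ⁅Φ.θ k, Φ.θ i⁆ (C.x j) * (Φ.Δ C * C.d j π) := by ring
      rw [h2, Φ.Δ_mul_d]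
      apply I.mul_mem_left
      exact I.sum_mem (fun l _ => I.mul_mem_left _ (hall l))
  -- claim B
  have hB : ∀ π' : S, Prime π' → algebraMap S A π' ∈ m → π' ∣ t → π ∣ π' := by
    intro π' hπ' hπ'm hd'
    by_contra hnd
    obtain ⟨_, hπ'k⟩ := Φ.ram C hNS i hπ' hπ'm hd'
    refine Φ.lemmaZ C evA hev hdim i hπ hπm hπk π' hπ'm hnd ?_
    intro k hk
    have h1m : (1 : A) ∉ m := (Ideal.ne_top_iff_one m).mp (Ideal.IsPrime.ne_top inferInstance)
    refine ⟨1, by rw [map_one]; exact h1m, ?_⟩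
    obtain ⟨c, hc⟩ := hπ'k k hk
    rw [hc, one_mul]
    exact Ideal.mul_mem_right _ _ (Ideal.subset_span (by simp))
  have hmult1 := (Φ.vl_add hπ i (Or.inr (multiplicity_pos_of_dvd hd))).1
  refine ⟨hπ, hπm, hπk, hA, ?_, ?_⟩
  · obtain ⟨n, u, hu, hn⟩ := WfDvdMonoid.max_power_factor' ht0 hπ.not_isUnit
    have hu0 : u ≠ 0 := by rintro rfl; exact hu (dvd_zero _)
    obtain ⟨q, rfl⟩ : ∃ q, n = q + 1 := by
      rcases n with _ | q
      · rw [pow_zero, one_mul] at hn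
        rw [hn] at hd; exact absurd hd hu
      · exact ⟨q, rfl⟩
    refine ⟨q, u, hn, ?_⟩
    intro hum
    obtain ⟨π', hπ', hπ'u, hπ'm⟩ := exists_prime_factor_mem hu0 hum
    have h1 : π' ∣ t := by rw [hn]; exact Dvd.dvd.mul_left hπ'u _
    exact hu ((hB π' hπ' hπ'm h1).trans hπ'u)
  · have hπp : π ∣ Φ.p i := dvd_of_multiplicity_pos (by rw [hmult1]; exact one_pos)
    obtain ⟨p', hp'⟩ := hπp
    refine ⟨p', hp', ?_⟩
    intro hpm
    have hp'0 : p' ≠ 0 := by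
      rintro rfl; rw [mul_zero] at hp'; exact Φ.p_ne_zero i hp'
    obtain ⟨π', hπ', hπ'p, hπ'm⟩ := exists_prime_factor_mem hp'0 hpm
    have h1 : π' ∣ Φ.p i := by rw [hp']; exact Dvd.dvd.mul_left hπ'p _
    have h2 : 0 < multiplicity π' (Φ.p i) := multiplicity_pos_of_dvd h1
    have h3 := Φ.vl_p hπ' i
    have hN : 0 < Fintype.card G := Fintype.card_pos
    have h4 : 0 < vl G π' (Φ.h (Φ.χ i)) ∨ 0 < vl G π' (Φ.h (Φ.χ i)⁻¹) := by
      by_contra hcon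
      push Not at hcon
      have : 0 < Fintype.card G * multiplicity π' (Φ.p i) := Nat.mul_pos hN h2
      omega
    have h5 := (Φ.vl_add hπ' i h4).2
    have h6 := Φ.vl_lt hπ' _ (Φ.h0 i)
    have h7 : 0 < vl G π' (Φ.h (Φ.χ i)⁻¹) := by omega
    have h8 : π ∣ π' := hB π' hπ' hπ'm (dvd_of_multiplicity_pos h7)
    have h9 : π ^ 2 ∣ Φ.p i := by
      rw [hp', pow_two]
      exact mul_dvd_mul_left _ (h8.trans hπ'p)
    have h10 := (FiniteMultiplicity.of_prime_left hπ (Φ.p_ne_zero i)).le_multiplicity_of_pow_dvd h9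
    omega

theorem exists_localEq' (hNS : ∀ π : S, Prime π → ∃ j, ¬ π ∣ C.d j π)
    (hev : ∀ a, a ∈ m ↔ evA a = 0)
    (hdim : ringKrullDim (Localization.AtPrime (m.comap (algebraMap S A))) ≤ Fintype.card ι)
    (i : ι) (hi : Φ.h (Φ.χ i)⁻¹ ∈ m) : ∃ π, Φ.LocalEq i π := by
  have h1 := hi
  rw [mem_iff_nm_mem (S := S) (Φ.hh _)] at h1
  obtain ⟨π, hπ, hd, hπm⟩ := exists_prime_factor_mem (nm_ne_zero (Φ.hh _) (Φ.h0' i)) h1
  exact ⟨π, Φ.exists_localEq C evA hNS hev hdim i hi hπ hπm hd⟩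

/-- `D_i h_i'` is a unit at the point -/
theorem D_self_not_mem (hev : ∀ a, a ∈ m ↔ evA a = 0) (i : ι) (hE : Φ.LocalEq i π) :
    Φ.D i (Φ.h (Φ.χ i)⁻¹) ∉ m := by
  obtain ⟨q, u, hq, hu⟩ := hE.nm_eq
  obtain ⟨p', hp', hp'm⟩ := hE.p_eq
  have key := card_mul_nm_mul (S := S) (Φ.D i) (Φ.hh (Φ.χ i)⁻¹)
  rw [Φ.hθ, hq, deriv_pow_succ_mul] at key
  set z : S := ((q : S) + 1) * u * Φ.θ i π + π * Φ.θ i u with hz
  have hpA := Φ.hp i
  rw [hp'] at hpA
  simp only [map_mul, map_pow] at key hpA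
  have hπA : algebraMap S A π ≠ 0 := algebraMap_ne_zero' hE.prime.ne_zero
  have h2 : (Fintype.card G : A) * (algebraMap S A u * Φ.D i (Φ.h (Φ.χ i)⁻¹)) =
      algebraMap S A p' * algebraMap S A z := by
    apply mul_left_cancel₀ (pow_ne_zero (q + 1) hπA)
    calc algebraMap S A π ^ (q + 1) * ((Fintype.card G : A) *
          (algebraMap S A u * Φ.D i (Φ.h (Φ.χ i)⁻¹)))
        = (Fintype.card G : A) * (algebraMap S A π ^ (q + 1) * algebraMap S A u *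
            Φ.D i (Φ.h (Φ.χ i)⁻¹)) := by ring
      _ = Φ.h (Φ.χ i)⁻¹ * (algebraMap S A π ^ q * algebraMap S A z * Φ.h (Φ.χ i)) := key
      _ = (Φ.h (Φ.χ i) * Φ.h (Φ.χ i)⁻¹) * (algebraMap S A π ^ q * algebraMap S A z) := by ring
      _ = (algebraMap S A π * algebraMap S A p') * (algebraMap S A π ^ q * algebraMap S A z) := by
          rw [hpA]
      _ = _ := by ring
  have hzm : algebraMap S A z ∉ m := by
    intro h
    have h3 := (hev _).mp h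
    have h4 : evA (algebraMap S A π) = 0 := (hev _).mp hE.mem
    have h5 : evA (algebraMap S A u) ≠ 0 := fun h => hu ((hev _).mpr h)
    have h6 : evA (algebraMap S A (Φ.θ i π)) ≠ 0 := fun h => hE.notMem ((hev _).mpr h)
    rw [hz] at h3
    simp only [map_add, map_mul, map_natCast, map_one, h4, zero_mul, add_zero] at h3
    rcases mul_eq_zero.mp h3 with h7 | h7
    · rcases mul_eq_zero.mp h7 with h8 | h8
      · exact Nat.cast_add_one_ne_zero q h8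
      · exact h5 h8
    · exact h6 h7
  intro hmem
  have h3 : algebraMap S A p' * algebraMap S A z ∈ m := by
    rw [← h2]; exact m.mul_mem_left _ (m.mul_mem_left _ hmem)
  rcases Ideal.IsPrime.mem_or_mem inferInstance h3 with h | h
  · exact hp'm h
  · exact hzm h

/-- `D_k h_i'` vanishes at the point for `k ≠ i` -/
theorem D_other_mem (i k : ι) (hki : k ≠ i) (hi : Φ.h (Φ.χ i)⁻¹ ∈ m) (hE : Φ.LocalEq i π) :
    Φ.D k (Φ.h (Φ.χ i)⁻¹) ∈ m := by
  obtain ⟨q, u, hq, hu⟩ := hE.nm_eq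
  obtain ⟨c, hc⟩ := hE.dvd k hki
  have key := card_mul_nm_mul (S := S) (Φ.D k) (Φ.hh (Φ.χ i)⁻¹)
  rw [Φ.hθ, hq, deriv_pow_succ_mul, hc] at key
  simp only [map_mul, map_pow, map_add, map_natCast, map_one] at key
  have hπA : algebraMap S A π ≠ 0 := algebraMap_ne_zero' hE.prime.ne_zero
  have h2 : (Fintype.card G : A) * (algebraMap S A u * Φ.D k (Φ.h (Φ.χ i)⁻¹)) =
      Φ.h (Φ.χ i)⁻¹ * (((q + 1) * algebraMap S A u * algebraMap S A c +
        algebraMap S A (Φ.θ k u)) * Φ.h (Φ.χ k)) := by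
    apply mul_left_cancel₀ (pow_ne_zero (q + 1) hπA)
    linear_combination key
  have h3 : (Fintype.card G : A) * (algebraMap S A u * Φ.D k (Φ.h (Φ.χ i)⁻¹)) ∈ m := by
    rw [h2]; exact m.mul_mem_right _ hi
  have hN : IsUnit (Fintype.card G : A) := card_isUnit (G := G)
  rw [Ideal.unit_mul_mem_iff_mem m hN] at h3
  rcases Ideal.IsPrime.mem_or_mem inferInstance h3 with h | h
  · exact absurd h hu
  · exact h

end FrameData

end

end Vale.Agent.H23
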