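import Mathlib
import Vale.Agent.H23.LocalEq

/-!
The maximal ideal is locally generated by `card ι` elements.
-/

set_option linter.unusedSectionVars false

namespace Vale.Agent.H23

section

variable {G S A ι : Type*} [CommGroup G] [Fintype G] [Fintype ι] [DecidableEq ι]
  [CommRing S] [IsDomain S] [UniqueFactorizationMonoid S] [Algebra ℂ S] [IsNoetherianRing S]
  [CommRing A] [IsDomain A] [IsIntegrallyClosed A] [Algebra ℂ A]
  [Algebra S A] [IsScalarTower ℂ S A] [FaithfulSMul S A]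
  [MulSemiringAction G A] [SMulCommClass G ℂ A] [SMulCommClass G S A]
  [Algebra.IsInvariant S A G]
  {m : Ideal A} [m.IsPrime] {π : S}

namespace FrameData

variable (Φ : FrameData G S A ι m) (C : Coord S ι) (evA : A →ₐ[ℂ] ℂ)

open Classical in
/-- the local parameters -/
noncomputable def gg (i : ι) : A :=
  if Φ.h (Φ.χ i)⁻¹ ∈ m then Φ.h (Φ.χ i)⁻¹ else algebraMap S A (Φ.y C evA i)

lemma gg_of_mem {i : ι} (hi : Φ.h (Φ.χ i)⁻¹ ∈ m) : Φ.gg C evA i = Φ.h (Φ.χ i)⁻¹ := if_pos hi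

lemma gg_of_not_mem {i : ι} (hi : Φ.h (Φ.χ i)⁻¹ ∉ m) :
    Φ.gg C evA i = algebraMap S A (Φ.y C evA i) := if_neg hi

lemma y_mem (hev : ∀ a, a ∈ m ↔ evA a = 0) (i : ι) : algebraMap S A (Φ.y C evA i) ∈ m :=
  (hev _).mpr (Φ.ev_y C evA i)

lemma gg_mem (hev : ∀ a, a ∈ m ↔ evA a = 0) (i : ι) : Φ.gg C evA i ∈ m := by
  by_cases hi : Φ.h (Φ.χ i)⁻¹ ∈ m
  · rw [gg_of_mem Φ C evA hi]; exact hi
  · rw [gg_of_not_mem Φ C evA hi]; exact Φ.y_mem C evA hev i

variable (hNS : ∀ π : S, Prime π → ∃ j, ¬ π ∣ C.d j π)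
    (hev : ∀ a, a ∈ m ↔ evA a = 0)
    (hdim : ringKrullDim (Localization.AtPrime (m.comap (algebraMap S A))) ≤ Fintype.card ι)

include hNS hev hdim

lemma D_gg_other (i k : ι) (hki : k ≠ i) : Φ.D k (Φ.gg C evA i) ∈ m := by
  by_cases hi : Φ.h (Φ.χ i)⁻¹ ∈ m
  · rw [gg_of_mem Φ C evA hi]
    obtain ⟨π, hE⟩ := Φ.exists_localEq' C evA hNS hev hdim i hi
    exact Φ.D_other_mem i k hki hi hE
  · rw [gg_of_not_mem Φ C evA hi, Φ.hθ, hev, map_mul, ← evS_apply, Φ.ev_θ_y C evA hev,
      if_neg hki, zero_mul]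

lemma D_gg_self (i : ι) : Φ.D i (Φ.gg C evA i) ∉ m := by
  by_cases hi : Φ.h (Φ.χ i)⁻¹ ∈ m
  · rw [gg_of_mem Φ C evA hi]
    obtain ⟨π, hE⟩ := Φ.exists_localEq' C evA hNS hev hdim i hi
    exact Φ.D_self_not_mem evA hev i hE
  · rw [gg_of_not_mem Φ C evA hi, Φ.hθ, hev, map_mul, ← evS_apply, Φ.ev_θ_y C evA hev,
      if_pos rfl, one_mul, ← hev]
    exact Φ.h_not_mem i hi

lemma det_gg : (Matrix.of fun k j => Φ.D k (Φ.gg C evA j)).det ∉ m := by
  have h1 : evA (Matrix.of fun k j => Φ.D k (Φ.gg C evA j)).det =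
      ((evA : A →+* ℂ).mapMatrix (Matrix.of fun k j => Φ.D k (Φ.gg C evA j))).det :=
    RingHom.map_det (evA : A →+* ℂ) _
  have h2 : (evA : A →+* ℂ).mapMatrix (Matrix.of fun k j => Φ.D k (Φ.gg C evA j)) =
      Matrix.diagonal (fun i => evA (Φ.D i (Φ.gg C evA i))) := by
    ext k j
    rw [RingHom.mapMatrix_apply, Matrix.map_apply, Matrix.of_apply, Matrix.diagonal_apply,
      RingHom.coe_coe]
    split_ifs with h
    · rw [h]
    · exact (hev _).mp (Φ.D_gg_other C evA hNS hev hdim j k h)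
  rw [hev, h1, h2, Matrix.det_diagonal]
  apply Finset.prod_ne_zero_iff.mpr
  intro i _
  exact fun h => Φ.D_gg_self C evA hNS hev hdim i ((hev _).mpr h)

omit hNS hev hdim in
/-- Taylor expansion in the adapted coordinates -/
lemma taylor_y (hev : ∀ a, a ∈ m ↔ evA a = 0)
    (hT : ∀ s : S, s - algebraMap ℂ S (evS S evA s) -
      ∑ l, evS S evA (C.d l s) • (C.x l - algebraMap ℂ S (evS S evA (C.x l))) ∈
        (m.comap (algebraMap S A)) ^ 2) (s : S) :
    s - algebraMap ℂ S (evS S evA s) - ∑ k, evS S evA (Φ.θ k s) • Φ.y C evA k ∈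
      (m.comap (algebraMap S A)) ^ 2 := by
  have hu := Φ.isUnit_det_M0 C evA hev
  have h1 : ∑ k, evS S evA (Φ.θ k s) • Φ.y C evA k =
      ∑ l, evS S evA (C.d l s) • (C.x l - algebraMap ℂ S (evS S evA (C.x l))) := by
    set X : ι → S := fun l => C.x l - algebraMap ℂ S (evS S evA (C.x l)) with hX
    have h2 : ∀ k, evS S evA (Φ.θ k s) = ∑ l, (Φ.M0 C evA) k l * evS S evA (C.d l s) := by
      intro k
      conv_lhs => rw [C.span (Φ.θ k) s]
      rw [map_sum]
      exact Finset.sum_congr rfl (fun l _ => by rw [map_mul]; rfl)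
    calc ∑ k, evS S evA (Φ.θ k s) • Φ.y C evA k
        = ∑ k, (∑ l, (Φ.M0 C evA) k l * evS S evA (C.d l s)) •
            ∑ l', (Φ.M0 C evA)⁻¹ l' k • X l' := by
          refine Finset.sum_congr rfl (fun k _ => ?_)
          rw [h2]; rfl
      _ = ∑ k, ∑ l, ∑ l', (evS S evA (C.d l s) * ((Φ.M0 C evA)⁻¹ l' k * (Φ.M0 C evA) k l)) •
            X l' := by
          refine Finset.sum_congr rfl (fun k _ => ?_)
          rw [Finset.sum_smul]
          refine Finset.sum_congr rfl (fun l _ => ?_)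
          rw [Finset.smul_sum]
          refine Finset.sum_congr rfl (fun l' _ => ?_)
          rw [smul_smul]
          congr 1
          ring
      _ = ∑ l, ∑ l', (evS S evA (C.d l s) * ∑ k, ((Φ.M0 C evA)⁻¹ l' k * (Φ.M0 C evA) k l)) •
            X l' := by
          rw [Finset.sum_comm]
          refine Finset.sum_congr rfl (fun l _ => ?_)
          rw [Finset.sum_comm]
          refine Finset.sum_congr rfl (fun l' _ => ?_)
          rw [Finset.mul_sum, Finset.sum_smul]
      _ = ∑ l, ∑ l', (evS S evA (C.d l s) * (1 : Matrix ι ι ℂ) l' l) • X l' := by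
          refine Finset.sum_congr rfl (fun l _ => Finset.sum_congr rfl (fun l' _ => ?_))
          rw [← Matrix.mul_apply, Matrix.nonsing_inv_mul _ hu]
      _ = ∑ l, evS S evA (C.d l s) • X l := by
          refine Finset.sum_congr rfl (fun l _ => ?_)
          rw [Finset.sum_eq_single l]
          · rw [Matrix.one_apply_eq, mul_one]
          · intro l' _ hne
            rw [Matrix.one_apply_ne hne, mul_zero, zero_smul]
          · intro h; exact absurd (Finset.mem_univ l) h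
  rw [h1]
  exact hT s

/-- the ideal of elements lying locally in `J + m ^ 2`. -/
theorem maximal_le
    (hT : ∀ s : S, s - algebraMap ℂ S (evS S evA s) -
      ∑ l, evS S evA (C.d l s) • (C.x l - algebraMap ℂ S (evS S evA (C.x l))) ∈
        (m.comap (algebraMap S A)) ^ 2) (a : A) (ha : a ∈ m) :
    ∃ s, s ∉ m ∧ s * a ∈ Ideal.span (Set.range (Φ.gg C evA)) ⊔ m ^ 2 := by
  set J : Ideal A := Ideal.span (Set.range (Φ.gg C evA)) with hJ
  set n : Ideal S := m.comap (algebraMap S A) with hn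
  have h1m : (1 : A) ∉ m := (Ideal.ne_top_iff_one m).mp (Ideal.IsPrime.ne_top inferInstance)
  let c : Ideal A :=
    { carrier := {a | ∃ s, s ∉ m ∧ s * a ∈ J ⊔ m ^ 2}
      add_mem' := by
        rintro x y ⟨s, hs, hx⟩ ⟨t, ht, hy⟩
        refine ⟨s * t, fun h => ?_, ?_⟩
        · rcases Ideal.IsPrime.mem_or_mem inferInstance h with h | h
          · exact hs h
          · exact ht h
        · have : s * t * (x + y) = t * (s * x) + s * (t * y) := by ring
          rw [this]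
          exact Ideal.add_mem _ (Ideal.mul_mem_left _ _ hx) (Ideal.mul_mem_left _ _ hy)
      zero_mem' := ⟨1, h1m, by rw [mul_zero]; exact Ideal.zero_mem _⟩
      smul_mem' := by
        rintro r x ⟨s, hs, hx⟩
        refine ⟨s, hs, ?_⟩
        have : s * (r • x) = r * (s * x) := by rw [smul_eq_mul]; ring
        rw [this]
        exact Ideal.mul_mem_left _ _ hx }
  have hcJ : ∀ x ∈ J ⊔ m ^ 2, x ∈ c := fun x hx => ⟨1, h1m, by rwa [one_mul]⟩
  have hcu : ∀ u x, u ∉ m → u * x ∈ c → x ∈ c := by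
    rintro u x hu ⟨s, hs, hx⟩
    refine ⟨s * u, fun h => ?_, by rwa [mul_assoc]⟩
    rcases Ideal.IsPrime.mem_or_mem inferInstance h with h | h
    · exact hs h
    · exact hu h
  have hgg : ∀ i, Φ.gg C evA i ∈ c := fun i =>
    hcJ _ (Ideal.mem_sup_left (Ideal.subset_span ⟨i, rfl⟩))
  have hm2 : ∀ x ∈ m ^ 2, x ∈ c := fun x hx => hcJ x (Ideal.mem_sup_right hx)
  have hn2 : ∀ s ∈ n ^ 2, algebraMap S A s ∈ c := by
    intro s hs
    apply hm2
    have h1 : (n ^ 2).map (algebraMap S A) ≤ m ^ 2 := by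
      rw [Ideal.map_pow]
      exact Ideal.pow_right_mono Ideal.map_comap_le 2
    exact h1 (Ideal.mem_map_of_mem _ hs)
  -- the local equations
  have hπc : ∀ i (π : S), Φ.h (Φ.χ i)⁻¹ ∈ m → Φ.LocalEq i π → algebraMap S A π ∈ c := by
    intro i π hi hE
    obtain ⟨p', hp', hp'm⟩ := hE.p_eq
    apply hcu _ _ hp'm
    rw [← map_mul, mul_comm p' π, ← hp', Φ.hp i]
    apply c.mul_mem_left
    have := hgg i
    rwa [gg_of_mem Φ C evA hi] at this
  -- the coordinates
  have hy : ∀ i, algebraMap S A (Φ.y C evA i) ∈ c := by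
    intro i
    by_cases hi : Φ.h (Φ.χ i)⁻¹ ∈ m
    · obtain ⟨π, hE⟩ := Φ.exists_localEq' C evA hNS hev hdim i hi
      have h1 := Φ.taylor_y C evA hev hT π
      have hπ0 : evS S evA π = 0 := (hev _).mp hE.mem
      have h2 : ∑ k, evS S evA (Φ.θ k π) • Φ.y C evA k =
          evS S evA (Φ.θ i π) • Φ.y C evA i := by
        rw [Finset.sum_eq_single i]
        · intro k _ hk
          obtain ⟨z, hz⟩ := hE.dvd k hk
          rw [hz, map_mul, hπ0, zero_mul, zero_smul]
        · intro h; exact absurd (Finset.mem_univ i) h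
      rw [h2, hπ0, map_zero, sub_zero] at h1
      have h3 := hn2 _ h1
      rw [map_sub] at h3
      have h4 := (Submodule.sub_mem_iff_right c (hπc i π hi hE)).mp h3
      have h5 : evS S evA (Φ.θ i π) ≠ 0 := fun h => hE.notMem ((hev _).mpr h)
      apply hcu (algebraMap S A (algebraMap ℂ S (evS S evA (Φ.θ i π))))
      · rw [hev, ← evS_apply, AlgHom.commutes]
        exact h5
      · rw [← map_mul, ← Algebra.smul_def]
        exact h4
    · have := hgg i
      rwa [gg_of_not_mem Φ C evA hi] at this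
  have hnc : ∀ s ∈ n, algebraMap S A s ∈ c := by
    intro s hs
    have h1 := Φ.taylor_y C evA hev hT s
    have hs0 : evS S evA s = 0 := (hev _).mp hs
    rw [hs0, map_zero, sub_zero] at h1
    have h3 := hn2 _ h1
    rw [map_sub] at h3
    refine (Submodule.sub_mem_iff_left c ?_).mp h3
    rw [map_sum]
    apply c.sum_mem
    intro k _
    rw [Algebra.smul_def, map_mul]
    exact c.mul_mem_left _ (hy k)
  -- generators in `m`
  have hhc : ∀ ψ : G →* ℂˣ, Φ.h ψ ∈ m → Φ.h ψ ∈ c := by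
    intro ψ hψ
    by_cases hψ0 : Φ.h ψ = 0
    · rw [hψ0]; exact c.zero_mem
    have h1 := hψ
    rw [mem_iff_nm_mem (S := S) (Φ.hh _)] at h1
    obtain ⟨π, hπ, hd, hπm⟩ := exists_prime_factor_mem (nm_ne_zero (Φ.hh _) hψ0) h1
    obtain ⟨l, hl⟩ := Φ.exists_not_dvd C hNS hπ hπm
    have h2 := Φ.star hπ hl (Φ.hh ψ) hψ0 hd
    have h3 := Φ.vl_lt hπ ψ hψ0
    have h4 := Φ.vl_lt hπ _ (Φ.h0 l)
    have h5 := (Φ.vl_add hπ l (Or.inl (by omega))).2
    have h6 : 0 < vl G π (Φ.h (Φ.χ l)⁻¹) := by omega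
    have h7 : π ∣ nm G S (Φ.h (Φ.χ l)⁻¹) := dvd_of_multiplicity_pos h6
    have h8 : Φ.h (Φ.χ l)⁻¹ ∈ m := by
      rw [mem_iff_nm_mem (S := S) (Φ.hh _)]
      obtain ⟨z, hz⟩ := h7
      rw [hz, map_mul]
      exact Ideal.mul_mem_right _ _ hπm
    have hE := Φ.exists_localEq C evA hNS hev hdim l h8 hπ hπm h7
    obtain ⟨q, u, hq, hu⟩ := hE.nm_eq
    have hup : ¬ π ∣ u := by
      rintro ⟨z, hz⟩
      apply hu
      rw [hz, map_mul]
      exact Ideal.mul_mem_right _ _ hπm
    have h9 : vl G π (Φ.h (Φ.χ l)⁻¹) = q + 1 := by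
      unfold vl
      rw [hq]
      exact multiplicity_eq_of_dvd_of_not_dvd (Dvd.intro _ rfl) (by
        rw [pow_succ π (q + 1)]
        intro h
        exact hup ((mul_dvd_mul_iff_left (pow_ne_zero _ hπ.ne_zero)).mp h))
    have h10 : Φ.h (Φ.χ l)⁻¹ ∣ algebraMap S A u * Φ.h ψ := by
      rw [dvd_iff_nm_dvd (S := S) (Φ.hh _) ((Φ.hh ψ).amul u),
        nm_mul (isHom_algebraMap (G := G) u) (Φ.hh ψ), nm_algebraMap, hq, mul_comm (π ^ (q + 1)) u]
      apply mul_dvd_mul
      · exact dvd_pow_self _ Fintype.card_ne_zero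
      · refine (pow_dvd_pow π ?_).trans (pow_multiplicity_dvd π (nm G S (Φ.h ψ)))
        change q + 1 ≤ vl G π (Φ.h ψ)
        omega
    apply hcu _ _ hu
    obtain ⟨z, hz⟩ := h10
    rw [hz]
    apply c.mul_mem_right
    have := hgg l
    rwa [gg_of_mem Φ C evA h8] at this
  have hsub : ∀ s : S, algebraMap S A s - algebraMap ℂ A (evA (algebraMap S A s)) ∈ c := by
    intro s
    have h1 : s - algebraMap ℂ S (evS S evA s) ∈ n := by
      change algebraMap S A _ ∈ m
      rw [hev, ← evS_apply, map_sub, AlgHom.commutes]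
      simp
    have h2 := hnc _ h1
    rwa [map_sub, ← IsScalarTower.algebraMap_apply] at h2
  have hhsub : ∀ ψ : G →* ℂˣ, Φ.h ψ - algebraMap ℂ A (evA (Φ.h ψ)) ∈ c := by
    intro ψ
    by_cases hψ : Φ.h ψ ∈ m
    · have := (hev _).mp hψ
      rw [this, map_zero, sub_zero]
      exact hhc ψ hψ
    · have hc0 : evA (Φ.h ψ) ≠ 0 := fun h => hψ ((hev _).mpr h)
      set z := evA (Φ.h ψ) with hz
      apply hcu (∑ i ∈ Finset.range (Fintype.card G), Φ.h ψ ^ i *
        (algebraMap ℂ A z) ^ (Fintype.card G - 1 - i))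
      · rw [hev, map_sum]
        have h1 : ∀ i ∈ Finset.range (Fintype.card G), evA (Φ.h ψ ^ i *
            (algebraMap ℂ A z) ^ (Fintype.card G - 1 - i)) = z ^ (Fintype.card G - 1) := by
          intro i hi
          rw [map_mul, map_pow, map_pow, AlgHom.commutes, ← hz]
          change z ^ i * z ^ (Fintype.card G - 1 - i) = _
          rw [← pow_add]
          congr 1
          have := Finset.mem_range.mp hi
          omega
        rw [Finset.sum_congr rfl h1, Finset.sum_const, Finset.card_range, nsmul_eq_mul]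
        exact mul_ne_zero (by exact_mod_cast Fintype.card_ne_zero) (pow_ne_zero _ hc0)
      · rw [Commute.geom_sum₂_mul (Commute.all _ _), ← algebraMap_nm (S := S) (Φ.hh ψ),
          ← map_pow]
        have h2 := hsub (nm G S (Φ.h ψ))
        rwa [algebraMap_nm (S := S) (Φ.hh ψ), map_pow, ← algebraMap_nm (S := S) (Φ.hh ψ)] at h2
  have hprod : ∀ x y : A, x - algebraMap ℂ A (evA x) ∈ c → y - algebraMap ℂ A (evA y) ∈ c →
      x * y - algebraMap ℂ A (evA (x * y)) ∈ c := by
    intro x y hx hy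
    have : x * y - algebraMap ℂ A (evA (x * y)) =
        y * (x - algebraMap ℂ A (evA x)) + algebraMap ℂ A (evA x) * (y - algebraMap ℂ A (evA y)) := by
      rw [map_mul, map_mul]; ring
    rw [this]
    exact c.add_mem (c.mul_mem_left _ hx) (c.mul_mem_left _ hy)
  have hall : a - algebraMap ℂ A (evA a) ∈ c := by
    have h1 : a - algebraMap ℂ A (evA a) =
        ∑ ψ : G →* ℂˣ, (proj (rhoA G A) ψ a - algebraMap ℂ A (evA (proj (rhoA G A) ψ a))) := by
      rw [Finset.sum_sub_distrib, ← map_sum, ← map_sum, sum_proj]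
    rw [h1]
    apply c.sum_mem
    intro ψ _
    obtain ⟨s, hs⟩ := Φ.hgen ψ _ (isHom_proj (G := G) ψ a)
    rw [hs]
    exact hprod _ _ (hsub s) (hhsub ψ)
  rw [(hev a).mp ha, map_zero, sub_zero] at hall
  exact hall

end FrameData

end

end Vale.Agent.H23
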