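import Mathlib
import Vale.Agent.H23.Gens

/-!
Regularity of the local ring at the point.
-/

set_option linter.unusedSectionVars false

namespace Vale.Agent.H23

section

variable {G S A ι : Type*} [CommGroup G] [Fintype G] [Fintype ι] [DecidableEq ι]
  [CommRing S] [IsDomain S] [UniqueFactorizationMonoid S] [Algebra ℂ S] [IsNoetherianRing S]
  [CommRing A] [IsDomain A] [IsIntegrallyClosed A] [IsNoetherianRing A] [Algebra ℂ A]
  [Algebra S A] [IsScalarTower ℂ S A] [FaithfulSMul S A]
  [MulSemiringAction G A] [SMulCommClass G ℂ A] [SMulCommClass G S A]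
  [Algebra.IsInvariant S A G]
  {m : Ideal A} [m.IsPrime]

open IsLocalRing

namespace FrameData

variable (Φ : FrameData G S A ι m) (C : Coord S ι) (evA : A →ₐ[ℂ] ℂ)

include Φ in
theorem isRegularLocalRing (hNS : ∀ π : S, Prime π → ∃ j, ¬ π ∣ C.d j π)
    (hev : ∀ a, a ∈ m ↔ evA a = 0)
    (hdim : ringKrullDim (Localization.AtPrime (m.comap (algebraMap S A))) ≤ Fintype.card ι)
    (hT : ∀ s : S, s - algebraMap ℂ S (evS S evA s) -
      ∑ l, evS S evA (C.d l s) • (C.x l - algebraMap ℂ S (evS S evA (C.x l))) ∈
        (m.comap (algebraMap S A)) ^ 2) :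
    IsRegularLocalRing (Localization.AtPrime m) := by
  classical
  let R := Localization.AtPrime m
  have : IsNoetherianRing R := IsLocalization.isNoetherianRing m.primeCompl R inferInstance
  let f : A →+* R := algebraMap A R
  have hfunit : ∀ s : A, s ∉ m → IsUnit (f s) := fun s hs =>
    IsLocalization.map_units R (⟨s, hs⟩ : m.primeCompl)
  have hfmax : ∀ s : A, s ∈ m ↔ f s ∈ maximalIdeal R := fun s =>
    (IsLocalization.AtPrime.to_map_mem_maximal_iff R m s).symm
  let K : Ideal R := Ideal.span (Set.range (fun i => f (Φ.gg C evA i)))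
  have hle : maximalIdeal R ≤ K := by
    apply Submodule.le_of_le_smul_of_le_jacobson_bot (I := maximalIdeal R)
      (IsNoetherian.noetherian _) (IsLocalRing.maximalIdeal_le_jacobson ⊥)
    intro z hz
    obtain ⟨⟨a, t⟩, hat⟩ := IsLocalization.surj m.primeCompl z
    simp only at hat
    have ham : a ∈ m := by
      rw [hfmax]
      change algebraMap A R a ∈ _
      rw [← hat]
      exact Ideal.mul_mem_right _ _ hz
    obtain ⟨s, hs, hsa⟩ := Φ.maximal_le C evA hNS hev hdim hT a ham
    have h1 : f (s * a) ∈ K ⊔ maximalIdeal R • maximalIdeal R := by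
      have h2 : (Ideal.span (Set.range (Φ.gg C evA)) ⊔ m ^ 2).map f ≤
          K ⊔ maximalIdeal R • maximalIdeal R := by
        rw [Ideal.map_sup, Ideal.map_span, Ideal.map_pow]
        apply sup_le_sup
        · apply Ideal.span_mono
          rintro _ ⟨_, ⟨i, rfl⟩, rfl⟩
          exact ⟨i, rfl⟩
        · rw [smul_eq_mul, ← pow_two]
          apply Ideal.pow_right_mono
          rw [Ideal.map_le_iff_le_comap]
          intro x hx
          exact (hfmax x).mp hx
      exact h2 (Ideal.mem_map_of_mem _ hsa)
    have h3 : f (s * a) = (f s * f (t : A)) * z := by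
      rw [map_mul]
      change f s * algebraMap A R a = _
      rw [← hat]
      change f s * (z * f (t : A)) = _
      ring
    rw [h3] at h1
    exact (Ideal.unit_mul_mem_iff_mem _ ((hfunit s hs).mul (hfunit t t.2))).mp h1
  have hfin : (Set.range (fun i => f (Φ.gg C evA i))).Finite := Set.finite_range _
  have hKm : K = maximalIdeal R := by
    apply le_antisymm _ hle
    rw [Ideal.span_le]
    rintro _ ⟨i, rfl⟩
    exact (hfmax _).mp (Φ.gg_mem C evA hev i)
  have hrank : (maximalIdeal R).spanFinrank ≤ Fintype.card ι := by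
    rw [← hKm]
    refine (Submodule.spanFinrank_span_le_ncard_of_finite hfin).trans ?_
    rw [← Set.image_univ]
    refine (Set.ncard_image_le Set.finite_univ).trans ?_
    rw [Set.ncard_univ, Nat.card_eq_fintype_card]
  -- lower bound for the dimension
  have hD : ∀ k : ι, ∃ D' : Derivation ℂ R R, ∀ a, D' (f a) = f (Φ.D k a) := fun k =>
    exists_deriv_localization m.primeCompl R (Φ.D k)
  choose D' hD' using hD
  have hdet : IsUnit (Matrix.of fun k j => D' k (f (Φ.gg C evA j))).det := by
    have h1 : (Matrix.of fun k j => D' k (f (Φ.gg C evA j))) =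
        f.mapMatrix (Matrix.of fun k j => Φ.D k (Φ.gg C evA j)) := by
      ext k j
      rw [Matrix.of_apply, hD']
      rfl
    rw [h1, ← RingHom.map_det]
    exact hfunit _ (Φ.det_gg C evA hNS hev hdim)
  have hge := dim_ge_of_derivations (k := ℂ) R (fun i => f (Φ.gg C evA i)) D'
    (fun i => (hfmax _).mp (Φ.gg_mem C evA hev i)) hdet
  apply IsRegularLocalRing.of_spanFinrank_maximalIdeal_le
  refine le_trans ?_ hge
  exact_mod_cast hrank

end FrameData

end

end Vale.Agent.H23
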