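import Mathlib
import Vale.Agent.H23.LocalReg

/-!
Existence of a homogeneous local frame when the module of derivations is projective.
-/

set_option linter.unusedSectionVars false

namespace Vale.Agent.H23

universe u v

section

variable {A : Type u} [CommRing A] [IsNoetherianRing A] [Algebra ℂ A] [Algebra.FiniteType ℂ A]

/-- derivations of a finitely generated algebra form a finite module -/
instance finite_derivation : Module.Finite A (Derivation ℂ A A) := by
  obtain ⟨s, hs⟩ := (Algebra.FiniteType.out : (⊤ : Subalgebra ℂ A).FG)
  let f : Derivation ℂ A A →ₗ[A] (s → A) :=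
    { toFun := fun D a => D a
      map_add' := fun D E => by ext; simp
      map_smul' := fun c D => by ext; simp }
  have hf : Function.Injective f := by
    intro D E h
    apply Derivation.ext_of_adjoin_eq_top (s : Set A) hs
    intro a ha
    exact congrFun h ⟨a, ha⟩
  have : IsNoetherian A (Derivation ℂ A A) := isNoetherian_of_injective f hf
  infer_instance

variable {G : Type v} [CommGroup G] [Fintype G] [IsDomain A]
  [MulSemiringAction G A] [SMulCommClass G ℂ A]

variable (G) in
theorem exists_localFrame (m : Ideal A) [m.IsPrime] (hT : Module.Projective A (Derivation ℂ A A)) :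
    ∃ (κ : Type (max u v)) (_ : Fintype κ) (D : κ → Derivation ℂ A A) (χ : κ → (G →* ℂˣ)),
      (∀ i, IsHomD (χ i) (D i)) ∧ LocalFrame m D := by
  classical
  let R := Localization.AtPrime m
  let T := Derivation ℂ A A
  let TL := LocalizedModule m.primeCompl T
  let v0 : {x : (G →* ℂˣ) × T // IsHomD x.1 x.2} → T := fun x => x.1.2
  let mk : T →ₗ[A] TL := LocalizedModule.mkLinearMap m.primeCompl T
  have hspan0 : Submodule.span A (Set.range v0) = ⊤ := by
    rw [eq_top_iff]
    intro D _
    rw [← sum_proj (rhoD G A) D]
    apply Submodule.sum_mem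
    intro χ _
    exact Submodule.subset_span ⟨⟨(χ, _), isHomD_proj χ D⟩, rfl⟩
  have hspan : Submodule.span R (Set.range (fun x => mk (v0 x))) = ⊤ := by
    rw [eq_top_iff]
    intro z _
    obtain ⟨⟨D, s⟩, hz⟩ := IsLocalizedModule.surj m.primeCompl mk z
    have h1 : mk D ∈ Submodule.span R (Set.range (fun x => mk (v0 x))) := by
      have h2 : D ∈ Submodule.span A (Set.range v0) := by rw [hspan0]; trivial
      have h3 : mk D ∈ (Submodule.span A (Set.range v0)).map mk := ⟨D, h2, rfl⟩
      rw [Submodule.map_span] at h3
      have h4 : Submodule.span A (mk '' Set.range v0) ≤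
          (Submodule.span R (Set.range (fun x => mk (v0 x)))).restrictScalars A := by
        rw [Submodule.span_le]
        rintro _ ⟨_, ⟨x, rfl⟩, rfl⟩
        exact Submodule.subset_span ⟨x, rfl⟩
      exact h4 h3
    have hu : IsUnit (algebraMap A R s) := IsLocalization.map_units R s
    have h5 : (algebraMap A R s) • z ∈ Submodule.span R (Set.range (fun x => mk (v0 x))) := by
      have : (algebraMap A R s) • z = mk D := by
        rw [← hz]
        simp only [Submonoid.smul_def, algebraMap_smul]
      rw [this]; exact h1
    exact (Submodule.smul_mem_iff_of_isUnit _ hu).mp h5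
  have hproj : Module.Projective R TL := inferInstance
  have hfin : Module.Finite R TL := inferInstance
  have hfp : Module.FinitePresentation R TL := Module.finitePresentation_of_projective R TL
  obtain ⟨κ, a, b, hb⟩ := Module.exists_basis_of_span_of_flat _ hspan
  have : Finite κ := Module.Finite.finite_basis b
  refine ⟨κ, Fintype.ofFinite κ, fun i => (a i).1.2, fun i => (a i).1.1, fun i => (a i).2, ?_⟩
  let _ : Fintype κ := Fintype.ofFinite κ
  have hbi : ∀ i, b i = mk ((a i).1.2) := hb
  refine ⟨?_, ?_⟩
  · intro E
    -- coefficients of the image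
    have h1 : mk E = ∑ i, b.repr (mk E) i • b i := (b.sum_repr (mk E)).symm
    obtain ⟨s, hs⟩ := IsLocalization.exist_integer_multiples_of_finset m.primeCompl
      (Finset.univ.image (fun i => b.repr (mk E) i))
    have h2 : ∀ i, ∃ c : A, algebraMap A R c = algebraMap A R s * b.repr (mk E) i := by
      intro i
      obtain ⟨c, hc⟩ := hs _ (Finset.mem_image_of_mem _ (Finset.mem_univ i))
      refine ⟨c, ?_⟩
      rw [hc, Algebra.smul_def]
    choose c hc using h2
    have h3 : mk ((s : A) • E) = mk (∑ i, c i • (a i).1.2) := by
      rw [map_smul, map_sum, h1, Finset.smul_sum]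
      refine Finset.sum_congr rfl (fun i _ => ?_)
      rw [map_smul, ← hbi, ← algebraMap_smul R (c i), hc, ← algebraMap_smul R (s : A), smul_smul]
    obtain ⟨t, ht⟩ := (IsLocalizedModule.eq_iff_exists m.primeCompl mk).mp h3
    refine ⟨(t : A) * s, fun h => ?_, fun i => t * c i, ?_⟩
    · rcases Ideal.IsPrime.mem_or_mem inferInstance h with h | h
      · exact t.2 h
      · exact s.2 h
    · rw [mul_smul]
      simp only [mul_smul, ← Finset.smul_sum]
      exact ht
  · intro c hc i
    have h1 : ∑ i, (algebraMap A R (c i)) • b i = 0 := by
      have h2 := congrArg mk hc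
      rw [map_sum, map_zero] at h2
      rw [← h2]
      refine Finset.sum_congr rfl (fun i _ => ?_)
      rw [map_smul, hbi, algebraMap_smul]
    have h2 := (Fintype.linearIndependent_iff.mp b.linearIndependent) _ h1 i
    exact (IsLocalization.injective R (Ideal.primeCompl_le_nonZeroDivisors m)) (by
      rw [h2, map_zero])

end

end Vale.Agent.H23
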