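import Mathlib
import Vale.Agent.H23.FrameExist

/-!
Facts on polynomial rings.
-/

set_option linter.unusedSectionVars false

namespace Vale.Agent.H23

open MvPolynomial

variable {n : ℕ}

lemma deriv_expand {M : Type*} [AddCommGroup M] [Module (MvPolynomial (Fin n) ℂ) M] [Module ℂ M]
    [IsScalarTower ℂ (MvPolynomial (Fin n) ℂ) M]
    (θ : Derivation ℂ (MvPolynomial (Fin n) ℂ) M) (s : MvPolynomial (Fin n) ℂ) :
    θ s = ∑ j, pderiv j s • θ (X j) := by
  classical
  induction s using MvPolynomial.induction_on with
  | C a =>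
    have : (C a : MvPolynomial (Fin n) ℂ) = algebraMap ℂ _ a := rfl
    rw [this, Derivation.map_algebraMap]
    simp
  | add p q hp hq =>
    rw [map_add, hp, hq, ← Finset.sum_add_distrib]
    exact Finset.sum_congr rfl (fun j _ => by rw [map_add, add_smul])
  | mul_X p i hp =>
    rw [Derivation.leibniz, hp]
    have h1 : ∀ j : Fin n, (pderiv j (p * X i) : MvPolynomial (Fin n) ℂ) • θ (X j) =
        (p * Pi.single (M := fun _ => MvPolynomial (Fin n) ℂ) j 1 i) • θ (X j) +
          (X i : MvPolynomial (Fin n) ℂ) • ((pderiv j p : MvPolynomial (Fin n) ℂ) • θ (X j)) := by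
      intro j
      rw [Derivation.leibniz, pderiv_X, smul_smul, ← add_smul]
      simp only [smul_eq_mul]
    rw [Finset.sum_congr rfl (fun j _ => h1 j), Finset.sum_add_distrib, ← Finset.smul_sum]
    congr 1
    rw [Finset.sum_eq_single i]
    · simp
    · intro j _ hj
      rw [Pi.single_eq_of_ne (Ne.symm hj), mul_zero, zero_smul]
    · intro h; exact absurd (Finset.mem_univ i) h

/-- coordinates of the polynomial ring -/
noncomputable def polyCoord (n : ℕ) : Coord (MvPolynomial (Fin n) ℂ) (Fin n) where
  x := X
  d := pderiv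
  dual i j := by
    rw [pderiv_X, Pi.single_apply]
    simp only [eq_comm]
  span θ s := by
    rw [deriv_expand θ s]
    exact Finset.sum_congr rfl (fun j _ => by rw [smul_eq_mul, mul_comm])

lemma coeff_pderiv' (j : Fin n) (s : MvPolynomial (Fin n) ℂ) (m : Fin n →₀ ℕ) :
    coeff m (pderiv j s) = coeff (m + Finsupp.single j 1) s * (m j + 1) := by
  classical
  induction s using MvPolynomial.induction_on' with
  | monomial u a =>
    rw [pderiv_monomial, coeff_monomial, coeff_monomial]
    by_cases h : u = m + Finsupp.single j 1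
    · subst h
      simp
    · rw [if_neg h, zero_mul]
      by_cases h2 : u - Finsupp.single j 1 = m
      · rw [if_pos h2]
        have h3 : u j = 0 := by
          by_contra hne
          apply h
          rw [← h2]
          ext i
          by_cases hi : i = j
          · subst hi
            simp only [Finsupp.coe_add, Finsupp.coe_tsub, Pi.add_apply, Pi.sub_apply,
              Finsupp.single_eq_same]
            omega
          · simp [Finsupp.single_apply, Ne.symm hi]
        rw [h3]; simp
      · rw [if_neg h2]
  | add p q hp hq =>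
    rw [map_add, coeff_add, hp, hq, coeff_add, add_mul]

lemma exists_not_dvd_pderiv (π : MvPolynomial (Fin n) ℂ) (hπ : Prime π) :
    ∃ j, ¬ π ∣ (polyCoord n).d j π := by
  by_contra hcon
  push Not at hcon
  have hd : ∀ j, π ∣ pderiv j π := hcon
  -- all partial derivatives vanish
  have h0 : ∀ j, pderiv j π = 0 := by
    intro j
    by_contra hne
    obtain ⟨q, hq⟩ := hd j
    have hq0 : q ≠ 0 := by rintro rfl; rw [mul_zero] at hq; exact hne hq
    have h1 : π.totalDegree ≤ (pderiv j π).totalDegree := by
      rw [hq, totalDegree_mul_of_isDomain hπ.ne_zero hq0]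
      exact Nat.le_add_right _ _
    have h2 : (pderiv j π).totalDegree + 1 ≤ π.totalDegree := by
      obtain ⟨m, hm, hdeg⟩ := (pderiv j π).support.exists_mem_eq_sup
        (by rwa [Finset.nonempty_iff_ne_empty, Ne, MvPolynomial.support_eq_empty])
        (fun m => m.sum fun _ e => e)
      have h3 : m + Finsupp.single j 1 ∈ π.support := by
        rw [mem_support_iff] at hm ⊢
        rw [coeff_pderiv'] at hm
        exact left_ne_zero_of_mul hm
      have h4 := le_totalDegree h3
      have h5 : ((m + Finsupp.single j 1).sum fun _ e => e) = (m.sum fun _ e => e) + 1 := by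
        rw [Finsupp.sum_add_index' (fun _ => rfl) (fun _ _ _ => rfl),
          Finsupp.sum_single_index rfl]
      have h6 : (pderiv j π).totalDegree = m.sum fun _ e => e := hdeg
      omega
    omega
  -- hence constant
  have h1 : π = C (coeff 0 π) := by
    ext m
    rw [coeff_C]
    split_ifs with h
    · rw [h]
    · obtain ⟨j, hj⟩ : ∃ j, m j ≠ 0 := by
        by_contra hcon2
        push Not at hcon2
        exact h (Finsupp.ext (fun j => (hcon2 j).symm ▸ rfl))
      have h2 := coeff_pderiv' j π (m - Finsupp.single j 1)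
      rw [h0 j, coeff_zero] at h2
      have h3 : m - Finsupp.single j 1 + Finsupp.single j 1 = m := by
        ext i
        by_cases hi : i = j
        · subst hi
          simp only [Finsupp.coe_add, Finsupp.coe_tsub, Pi.add_apply, Pi.sub_apply,
            Finsupp.single_eq_same]
          omega
        · simp [Finsupp.single_apply, Ne.symm hi]
      rw [h3] at h2
      rcases mul_eq_zero.mp h2.symm with h4 | h4
      · exact h4
      · exact absurd h4 (Nat.cast_add_one_ne_zero _)
  by_cases hc : coeff 0 π = 0
  · rw [hc, C_0] at h1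
    exact hπ.ne_zero h1
  · apply hπ.not_isUnit
    rw [h1]
    exact (isUnit_iff_ne_zero.mpr hc).map C

lemma dim_localization_le (p : Ideal (MvPolynomial (Fin n) ℂ)) [p.IsPrime] :
    ringKrullDim (Localization.AtPrime p) ≤ Fintype.card (Fin n) := by
  rw [IsLocalization.AtPrime.ringKrullDim_eq_height p (Localization.AtPrime p)]
  refine Ideal.height_le_ringKrullDim_of_isPrime.trans ?_
  rw [MvPolynomial.ringKrullDim_of_isNoetherianRing, ringKrullDim_eq_zero_of_field,
    Nat.card_eq_fintype_card, zero_add]

lemma taylor_poly {A : Type*} [CommRing A] [Algebra ℂ A] [Algebra (MvPolynomial (Fin n) ℂ) A]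
    [IsScalarTower ℂ (MvPolynomial (Fin n) ℂ) A] (evA : A →ₐ[ℂ] ℂ) {m : Ideal A}
    (hev : ∀ a, a ∈ m ↔ evA a = 0) (s : MvPolynomial (Fin n) ℂ) :
    s - algebraMap ℂ _ (evS (MvPolynomial (Fin n) ℂ) evA s) -
      ∑ l, evS (MvPolynomial (Fin n) ℂ) evA ((polyCoord n).d l s) •
        ((polyCoord n).x l -
          algebraMap ℂ _ (evS (MvPolynomial (Fin n) ℂ) evA ((polyCoord n).x l))) ∈
        (m.comap (algebraMap (MvPolynomial (Fin n) ℂ) A)) ^ 2 := by
  classical
  set ev : MvPolynomial (Fin n) ℂ →ₐ[ℂ] ℂ := evS (MvPolynomial (Fin n) ℂ) evA with hevdef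
  set N : Ideal (MvPolynomial (Fin n) ℂ) := m.comap (algebraMap (MvPolynomial (Fin n) ℂ) A)
  set y : Fin n → MvPolynomial (Fin n) ℂ := fun l => X l - algebraMap ℂ _ (ev (X l)) with hy
  have hN : ∀ s, s - algebraMap ℂ _ (ev s) ∈ N := by
    intro s
    change algebraMap _ A _ ∈ m
    rw [hev]
    change ev (s - algebraMap ℂ _ (ev s)) = 0
    rw [map_sub, AlgHom.commutes]
    simp
  change s - algebraMap ℂ _ (ev s) - ∑ l, ev (pderiv l s) • y l ∈ N ^ 2
  induction s using MvPolynomial.induction_on with
  | C a =>
    have : (C a : MvPolynomial (Fin n) ℂ) = algebraMap ℂ _ a := rfl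
    rw [this, AlgHom.commutes]
    simp
  | add p q hp hq =>
    have h1 : ∑ l, ev (pderiv l (p + q)) • y l =
        ∑ l, ev (pderiv l p) • y l + ∑ l, ev (pderiv l q) • y l := by
      rw [← Finset.sum_add_distrib]
      exact Finset.sum_congr rfl (fun l _ => by rw [map_add, map_add, add_smul])
    have h2 : (p + q) - algebraMap ℂ _ (ev (p + q)) - ∑ l, ev (pderiv l (p + q)) • y l =
        (p - algebraMap ℂ _ (ev p) - ∑ l, ev (pderiv l p) • y l) +
        (q - algebraMap ℂ _ (ev q) - ∑ l, ev (pderiv l q) • y l) := by
      rw [h1, map_add, map_add]; ring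
    rw [h2]
    exact Ideal.add_mem _ hp hq
  | mul_X p i hp =>
    have h1 : ∑ l, ev (pderiv l (p * X i)) • y l =
        ev p • y i + ev (X i) • ∑ l, ev (pderiv l p) • y l := by
      have h2 : ∀ l, ev (pderiv l (p * X i)) • y l =
          (ev p * Pi.single (M := fun _ => ℂ) l 1 i) • y l +
            ev (X i) • (ev (pderiv l p) • y l) := by
        intro l
        rw [Derivation.leibniz, pderiv_X, smul_smul, ← add_smul, map_add]
        simp only [smul_eq_mul, map_mul]
        congr 2
        rcases eq_or_ne i l with h | h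
        · subst h; simp
        · rw [Pi.single_eq_of_ne h, Pi.single_eq_of_ne h]; simp
      rw [Finset.sum_congr rfl (fun l _ => h2 l), Finset.sum_add_distrib, ← Finset.smul_sum]
      congr 1
      rw [Finset.sum_eq_single i]
      · simp
      · intro j _ hj
        rw [Pi.single_eq_of_ne (Ne.symm hj), mul_zero, zero_smul]
      · intro h; exact absurd (Finset.mem_univ i) h
    have h3 : p * X i - algebraMap ℂ _ (ev (p * X i)) - ∑ l, ev (pderiv l (p * X i)) • y l =
        (p - algebraMap ℂ _ (ev p)) * (X i - algebraMap ℂ _ (ev (X i))) +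
        algebraMap ℂ _ (ev (X i)) * (p - algebraMap ℂ _ (ev p) - ∑ l, ev (pderiv l p) • y l) := by
      rw [h1, map_mul, map_mul, hy]
      simp only [Algebra.smul_def]
      ring
    rw [h3]
    apply Ideal.add_mem
    · rw [pow_two]
      exact Ideal.mul_mem_mul (hN p) (hN (X i))
    · exact Ideal.mul_mem_left _ _ hp

end Vale.Agent.H23
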