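import Mathlib
import Vale.Agent.H23.PolyFacts
import Vale.Agent.H23.ExtendDer

/-!
Construction of the frame data.
-/

set_option linter.unusedSectionVars false

namespace Vale.Agent.H23

open MvPolynomial

universe u v

variable {n : ℕ} {G : Type v} {A : Type u} [CommGroup G] [Fintype G]
  [CommRing A] [IsDomain A] [IsIntegrallyClosed A] [IsNoetherianRing A] [Algebra ℂ A]
  [Algebra.FiniteType ℂ A]
  [Algebra (MvPolynomial (Fin n) ℂ) A] [IsScalarTower ℂ (MvPolynomial (Fin n) ℂ) A]
  [FaithfulSMul (MvPolynomial (Fin n) ℂ) A]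
  [MulSemiringAction G A] [SMulCommClass G ℂ A] [SMulCommClass G (MvPolynomial (Fin n) ℂ) A]
  [Algebra.IsInvariant (MvPolynomial (Fin n) ℂ) A G]

include G in
variable (n G) in
lemma deriv_eq_zero (D : Derivation ℂ A A)
    (h : ∀ j : Fin n, D (algebraMap (MvPolynomial (Fin n) ℂ) A (X j)) = 0) : D = 0 := by
  have h1 : ∀ s : MvPolynomial (Fin n) ℂ, D (algebraMap _ A s) = 0 := by
    intro s
    have h2 := deriv_expand (D.compAlgebraMap (MvPolynomial (Fin n) ℂ)) s
    have h3 : (D.compAlgebraMap (MvPolynomial (Fin n) ℂ)) s = D (algebraMap _ A s) := rfl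
    rw [← h3, h2]
    apply Finset.sum_eq_zero
    intro j _
    have h4 : (D.compAlgebraMap (MvPolynomial (Fin n) ℂ)) (X j) = D (algebraMap _ A (X j)) := rfl
    rw [h4, h j, smul_zero]
  ext b
  have hom : ∀ (ψ : G →* ℂˣ) (b : A), IsHom ψ b → D b = 0 := by
    intro ψ b hb
    by_cases hb0 : b = 0
    · rw [hb0, map_zero]
    have key := card_mul_nm_mul (S := MvPolynomial (Fin n) ℂ) D hb
    rw [h1, mul_zero] at key
    have hN : IsUnit (Fintype.card G : A) := card_isUnit (G := G)
    rcases mul_eq_zero.mp key with h | h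
    · exact absurd h hN.ne_zero
    · rcases mul_eq_zero.mp h with h | h
      · exact absurd h (algebraMap_ne_zero' (nm_ne_zero hb hb0))
      · exact h
  rw [← sum_proj (rhoA G A) b, map_sum]
  simp only [Derivation.coe_zero, Pi.zero_apply]
  exact Finset.sum_eq_zero (fun χ _ => hom χ _ (isHom_proj χ b))

include G in
variable (n G) in
/-- the number of elements of a local frame -/
theorem card_frame {κ : Type*} [Fintype κ] {m : Ideal A} [m.IsPrime]
    {D : κ → Derivation ℂ A A} (hfr : LocalFrame m D) : Fintype.card κ = n := by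
  classical
  let S := MvPolynomial (Fin n) ℂ
  let K := FractionRing A
  have hAK : Function.Injective (algebraMap A K) := IsFractionRing.injective A K
  have hint : Algebra.IsIntegral S A := Algebra.IsInvariant.isIntegral S A G
  let w : κ → (Fin n → K) := fun i j => algebraMap A K (D i (algebraMap S A (X j)))
  have hlin : LinearIndependent K w := by
    rw [← LinearIndependent.iff_fractionRing A K, Fintype.linearIndependent_iff]
    intro c hc
    apply hfr.indep
    apply deriv_eq_zero n G
    intro j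
    have h1 := congrFun hc j
    simp only [Finset.sum_apply, Pi.smul_apply, Pi.zero_apply, w] at h1
    rw [deriv_sum_apply]
    apply hAK
    rw [map_sum, map_zero, ← h1]
    exact Finset.sum_congr rfl (fun i _ => by rw [map_mul, Algebra.smul_def])
  have hspan : ⊤ ≤ Submodule.span K (Set.range w) := by
    rw [← (Pi.basisFun K (Fin n)).span_eq, Submodule.span_le]
    rintro _ ⟨j, rfl⟩
    obtain ⟨s, E, hs0, hE⟩ := exists_extend (S := S) (A := A) (pderiv j)
    obtain ⟨b, hb, c, hc⟩ := hfr.span E
    have hb0 : b ≠ 0 := by rintro rfl; exact hb m.zero_mem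
    have h1 : algebraMap A K (b * s) • (Pi.basisFun K (Fin n)) j =
        ∑ i, algebraMap A K (c i) • w i := by
      ext l
      simp only [Pi.smul_apply, Pi.basisFun_apply, Finset.sum_apply, w, smul_eq_mul]
      have h2 := congrArg (fun D : Derivation ℂ A A => D (algebraMap S A (X l))) hc
      simp only [Derivation.smul_apply, hE, smul_eq_mul, deriv_sum_apply] at h2
      have h3 : (Pi.single j (1 : K) : Fin n → K) l =
          algebraMap A K (algebraMap S A (pderiv j (X l))) := by
        rw [pderiv_X]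
        by_cases hjl : l = j
        · subst hjl; simp
        · rw [Pi.single_eq_of_ne hjl, Pi.single_eq_of_ne hjl]; simp
      rw [h3, ← map_mul, mul_assoc, h2, map_sum]
      exact Finset.sum_congr rfl (fun i _ => by rw [map_mul])
    have h2 : algebraMap A K (b * s) ≠ 0 := by
      intro h
      exact mul_ne_zero hb0 hs0 (hAK (by rw [h, map_zero]))
    have h3 : algebraMap A K (b * s) • (Pi.basisFun K (Fin n)) j ∈
        Submodule.span K (Set.range w) := by
      rw [h1]
      exact Submodule.sum_mem _ (fun i _ => Submodule.smul_mem _ _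
        (Submodule.subset_span ⟨i, rfl⟩))
    exact (Submodule.smul_mem_iff _ h2).mp h3
  have := Module.finrank_eq_card_basis (Module.Basis.mk hlin hspan)
  rw [← this, Module.finrank_fin_fun]

variable (n G) in
theorem exists_frameData (m : Ideal A) [m.IsPrime]
    (hT : Module.Projective A (Derivation ℂ A A)) :
    Nonempty (FrameData G (MvPolynomial (Fin n) ℂ) A (Fin n) m) := by
  classical
  let S := MvPolynomial (Fin n) ℂ
  obtain ⟨κ, _, D0, χ0, hD0, hfr0⟩ := exists_localFrame G m hT
  have hcard := card_frame n G hfr0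
  let e : Fin n ≃ κ := (Fintype.equivFinOfCardEq hcard).symm
  let D : Fin n → Derivation ℂ A A := fun i => D0 (e i)
  let χ : Fin n → (G →* ℂˣ) := fun i => χ0 (e i)
  have hD : ∀ i, IsHomD (χ i) (D i) := fun i => hD0 (e i)
  have hfr : LocalFrame m D := by
    refine ⟨fun E => ?_, fun c hc i => ?_⟩
    · obtain ⟨b, hb, c, hc⟩ := hfr0.span E
      refine ⟨b, hb, fun i => c (e i), ?_⟩
      rw [hc]
      exact (e.sum_comp (fun k => c k • D0 k)).symm
    · have h1 : ∑ k, c (e.symm k) • D0 k = 0 := by
        rw [← e.sum_comp, ← hc]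
        exact Finset.sum_congr rfl (fun i _ => by rw [e.symm_apply_apply])
      have h2 := hfr0.indep _ h1 (e i)
      rwa [e.symm_apply_apply] at h2
  choose h hh hgen using exists_generator G S A
  have hDi0 : ∀ i, D i ≠ 0 := by
    intro i hi
    have h1 := hfr.indep (Pi.single i 1) (by
      rw [Finset.sum_eq_single i]
      · rw [hi, smul_zero]
      · intro j _ hj
        rw [Pi.single_eq_of_ne hj, zero_smul]
      · intro h; exact absurd (Finset.mem_univ i) h) i
    rw [Pi.single_eq_same] at h1
    exact one_ne_zero h1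
  have h0 : ∀ i, h (χ i) ≠ 0 := by
    intro i hi
    apply hDi0 i
    apply deriv_eq_zero n G
    intro j
    have h1 : IsHom (χ i) (D i (algebraMap S A (X j))) := by
      have := (hD i).apply (isHom_algebraMap (G := G) (A := A) (X j : S))
      rwa [chi_one_mul] at this
    obtain ⟨s, hs⟩ := hgen _ _ h1
    change D i (algebraMap S A (X j)) = 0
    rw [hs, hi, mul_zero]
  have h0' : ∀ i, h (χ i)⁻¹ ≠ 0 := by
    intro i hi
    obtain ⟨k, hk⟩ : ∃ k, Fintype.card G = k + 1 :=
      Nat.exists_eq_succ_of_ne_zero Fintype.card_ne_zero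
    have h1 : IsHom ((χ i) ^ k) (h (χ i) ^ k) := (hh (χ i)).pow k
    have h2 : (χ i) ^ k = (χ i)⁻¹ := by
      have h3 := char_pow_card (χ i)
      rw [hk, chi_pow_succ] at h3
      ext g
      have h4 := DFunLike.congr_fun h3 g
      have h5 : (χ i g) ^ k * χ i g = 1 := h4
      have h6 : ((χ i) ^ k) g = (χ i g)⁻¹ := eq_inv_of_mul_eq_one_left h5
      rw [h6]; rfl
    rw [h2] at h1
    obtain ⟨s, hs⟩ := hgen _ _ h1
    rw [hi, mul_zero] at hs
    exact pow_ne_zero k (h0 i) hs
  choose θ hθ using fun i => exists_theta (S := S) (hD i) (hgen (χ i)) (h0 i)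
  have hp : ∀ i, ∃ p : S, algebraMap S A p = h (χ i) * h (χ i)⁻¹ := by
    intro i
    have h1 := (hh (χ i)).mul (hh (χ i)⁻¹)
    rw [chi_mul_inv] at h1
    exact h1.exists_of_one
  choose p hp using hp
  exact ⟨{ h := h, hh := hh, hgen := hgen, D := D, χ := χ, hD := hD, frame := hfr, h0 := h0,
           h0' := h0', θ := θ, hθ := hθ, p := p, hp := hp }⟩

/-- evaluation at a maximal ideal -/
theorem exists_ev (m : Ideal A) [hm : m.IsMaximal] :
    ∃ evA : A →ₐ[ℂ] ℂ, ∀ a, a ∈ m ↔ evA a = 0 := by
  let _ : Field (A ⧸ m) := Ideal.Quotient.field m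
  have hft : Algebra.FiniteType ℂ (A ⧸ m) :=
    Algebra.FiniteType.of_surjective (Ideal.Quotient.mkₐ ℂ m) (Ideal.Quotient.mkₐ_surjective ℂ m)
  have hfin : Module.Finite ℂ (A ⧸ m) := finite_of_finite_type_of_isJacobsonRing ℂ (A ⧸ m)
  have hbij : Function.Bijective (algebraMap ℂ (A ⧸ m)) :=
    IsAlgClosed.algebraMap_bijective_of_isIntegral
  let e : ℂ ≃ₐ[ℂ] (A ⧸ m) := AlgEquiv.ofBijective (Algebra.ofId ℂ (A ⧸ m)) hbij
  refine ⟨e.symm.toAlgHom.comp (Ideal.Quotient.mkₐ ℂ m), fun a => ?_⟩
  change a ∈ m ↔ e.symm (Ideal.Quotient.mk m a) = 0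
  rw [← Ideal.Quotient.eq_zero_iff_mem]
  constructor
  · intro h; rw [h, map_zero]
  · intro h
    have := congrArg e h
    rwa [AlgEquiv.apply_symm_apply, map_zero] at this

include n G in
variable (n G) in
theorem regular_at_maximal (hT : Module.Projective A (Derivation ℂ A A))
    (m : Ideal A) [hm : m.IsMaximal] : IsRegularLocalRing (Localization.AtPrime m) := by
  obtain ⟨Φ⟩ := exists_frameData n G m hT
  obtain ⟨evA, hev⟩ := exists_ev m
  exact Φ.isRegularLocalRing (polyCoord n) evA exists_not_dvd_pderiv hev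
    (dim_localization_le _) (taylor_poly evA hev)

end Vale.Agent.H23
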